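import Mathlib

set_option autoImplicit false

namespace Crest.Agent.H5.Str

open MeasureTheory ProbabilityTheory Set
open scoped ENNReal NNReal RealInnerProductSpace

variable {E : Type} [NormedAddCommGroup E] [InnerProductSpace ℝ E] [FiniteDimensional ℝ E]
  [MeasurableSpace E] [BorelSpace E]

lemma gaussianReal_small (v : ℝ≥0) (hv : v ≠ 0) (a η : ℝ) :
    gaussianReal 0 v {s : ℝ | |a + s| ≤ η} ≤ ENNReal.ofReal (η / √v) := by
  rw [gaussianReal_apply 0 hv]
  have hset : {s : ℝ | |a + s| ≤ η} = Icc (-η - a) (η - a) := by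
    ext s; simp only [mem_ofPred_eq, mem_Icc, abs_le]; constructor <;> rintro ⟨h1, h2⟩ <;>
      constructor <;> linarith
  have hvp : (0:ℝ) < v := by positivity
  have hb : ∀ x, gaussianPDF 0 v x ≤ ENNReal.ofReal (1 / (2 * √v)) := by
    intro x
    rw [gaussianPDF]
    apply ENNReal.ofReal_le_ofReal
    rw [gaussianPDFReal]
    have h1 : Real.exp (-(x - 0) ^ 2 / (2 * v)) ≤ 1 := by
      apply Real.exp_le_one_iff.2
      apply div_nonpos_of_nonpos_of_nonneg <;> [nlinarith [sq_nonneg (x - 0)]; positivity]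
    have h2 : 2 * √v ≤ √(2 * Real.pi * v) := by
      apply Real.le_sqrt_of_sq_le
      rw [mul_pow, Real.sq_sqrt hvp.le]
      have := Real.pi_gt_three
      nlinarith
    have h3 : (√(2 * Real.pi * v))⁻¹ ≤ 1 / (2 * √v) := by
      rw [one_div]; apply inv_anti₀ (by positivity) h2
    calc (√(2 * Real.pi * v))⁻¹ * Real.exp (-(x - 0) ^ 2 / (2 * v)) ≤ (√(2 * Real.pi * v))⁻¹ * 1 := by
          gcongr
      _ ≤ _ := by rw [mul_one]; exact h3
  calc ∫⁻ x in {s : ℝ | |a + s| ≤ η}, gaussianPDF 0 v x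
      ≤ ∫⁻ _x in {s : ℝ | |a + s| ≤ η}, ENNReal.ofReal (1 / (2 * √v)) := lintegral_mono hb
    _ = ENNReal.ofReal (1 / (2 * √v)) * ENNReal.ofReal (2 * η) := by
        rw [setLIntegral_const, hset, Real.volume_Icc]; congr 2; ring
    _ = ENNReal.ofReal (η / √v) := by
        rw [← ENNReal.ofReal_mul (by positivity)]; congr 1; field_simp

lemma map_inner_stdGaussian (u : E) :
    (stdGaussian E).map (fun g => ⟪u, g⟫) = gaussianReal 0 (‖u‖₊ ^ 2) := by
  have h := IsGaussian.map_eq_gaussianReal (μ := stdGaussian E) (innerSL ℝ u)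
  rw [integral_strongDual_stdGaussian, variance_dual_stdGaussian] at h
  have h2 : (fun g => ⟪u, g⟫) = ⇑(innerSL ℝ u) := by ext g; simp
  rw [h2, h]
  congr 1
  ext; simp

/-- One-row small ball estimate. -/
lemma smallball (W : Submodule ℝ E) (v : E) (A : Set E) (hA : MeasurableSet A)
    (hinv : ∀ g, g ∈ A ↔ W.starProjection g ∈ A) (η : ℝ)
    (hδ : v - W.starProjection v ≠ 0) :
    stdGaussian E (A ∩ {g | |⟪g, v⟫| ≤ η}) ≤
      stdGaussian E A * ENNReal.ofReal (η / ‖v - W.starProjection v‖) := by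
  set u := v - W.starProjection v with hu
  set γ := stdGaussian E
  have hG : HasGaussianLaw (fun g : E => (W.starProjection g, ⟪u, g⟫)) γ := by
    have := (IsGaussian.hasGaussianLaw_id (μ := γ)).map_fun
      (W.starProjection.prod (innerSL ℝ u))
    simpa using this
  have hind : IndepFun (fun g : E => W.starProjection g) (fun g : E => ⟪u, g⟫) γ := by
    apply hG.indepFun_of_covariance_inner
    intro x y
    have h1 : (fun g : E => ⟪x, W.starProjection g⟫) = fun g => ⟪W.starProjection x, g⟫ := by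
      ext g; rw [Submodule.inner_starProjection_left_eq_right]
    have h2 : (fun g : E => ⟪y, ⟪u, g⟫⟫) = fun g => ⟪y • u, g⟫ := by
      ext g; simp [real_inner_smul_left, mul_comm]
    rw [h1, h2, ← covarianceBilin_apply_eq_cov IsGaussian.memLp_two_id,
      covarianceBilin_stdGaussian]
    change ⟪W.starProjection x, y • u⟫ = 0
    rw [real_inner_smul_right]
    have : ⟪W.starProjection x, u⟫ = 0 := by
      rw [hu]
      exact Submodule.inner_right_of_mem_orthogonal (W.starProjection_apply_mem x)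
        (W.sub_starProjection_mem_orthogonal v)
    rw [this, mul_zero]
  have hm1 : Measurable (fun g : E => W.starProjection g) := W.starProjection.continuous.measurable
  have hm2 : Measurable (fun g : E => ⟪u, g⟫) := by fun_prop
  have hmap := (indepFun_iff_map_prod_eq_prod_map_map hm1.aemeasurable hm2.aemeasurable).1 hind
  set T : Set (E × ℝ) := {p | p.1 ∈ A ∧ |⟪p.1, v⟫ + p.2| ≤ η} with hT
  have hTm : MeasurableSet T := by
    apply MeasurableSet.inter (measurable_fst hA)
    exact measurableSet_le (f := fun p : E × ℝ => |⟪p.1, v⟫ + p.2|) (g := fun _ => η)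
      (by fun_prop) (by fun_prop)
  have hpre : A ∩ {g | |⟪g, v⟫| ≤ η} = (fun g : E => (W.starProjection g, ⟪u, g⟫)) ⁻¹' T := by
    ext g
    simp only [hT, mem_inter_iff, mem_ofPred_eq, mem_preimage]
    rw [← hinv g]
    have : ⟪W.starProjection g, v⟫ + ⟪u, g⟫ = ⟪g, v⟫ := by
      rw [hu, Submodule.inner_starProjection_left_eq_right, real_inner_comm g, inner_sub_right]
      ring
    rw [this]
  rw [hpre, ← Measure.map_apply (hm1.prodMk hm2) hTm, hmap, map_inner_stdGaussian,
    Measure.prod_apply hTm]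
  have hvne : (‖u‖₊ ^ 2 : ℝ≥0) ≠ 0 := by
    simp only [ne_eq, OfNat.ofNat_ne_zero, not_false_eq_true, pow_eq_zero_iff, nnnorm_eq_zero]
    exact hδ
  calc ∫⁻ w, gaussianReal 0 (‖u‖₊ ^ 2) (Prod.mk w ⁻¹' T) ∂γ.map (fun g => W.starProjection g)
      ≤ ∫⁻ w, A.indicator (fun _ => ENNReal.ofReal (η / ‖u‖)) w
          ∂γ.map (fun g => W.starProjection g) := by
        apply lintegral_mono
        intro w
        by_cases hw : w ∈ A
        · simp only [indicator_of_mem hw]
          have : Prod.mk w ⁻¹' T = {s : ℝ | |⟪w, v⟫ + s| ≤ η} := by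
            ext s; simp [hT, hw]
          rw [this]
          have h := gaussianReal_small _ hvne ⟪w, v⟫ η
          simpa using h
        · have : Prod.mk w ⁻¹' T = ∅ := by ext s; simp [hT, hw]
          simp [this]
    _ = γ A * ENNReal.ofReal (η / ‖u‖) := by
        rw [lintegral_indicator_const hA, Measure.map_apply hm1 hA, mul_comm]
        congr 2
        ext g; simp only [mem_preimage]; exact (hinv g).symm

lemma map_sum_smul {k : ℕ} (u : Fin k → ℝ) (hu : ∑ i, u i ^ 2 = 1) :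
    (Measure.pi fun _ : Fin k => stdGaussian E).map (fun G => ∑ i, u i • G i) = stdGaussian E := by
  have hm : Measurable (fun G : Fin k → E => ∑ i, u i • G i) := by fun_prop
  have h1 : (Measure.pi fun _ : Fin k => stdGaussian E).map (fun G i => u i • G i) =
      Measure.pi fun i : Fin k => (stdGaussian E).map (fun g => u i • g) :=
    Measure.pi_map_pi (fun i => by fun_prop)
  have h2 : (fun G : Fin k → E => ∑ i, u i • G i) =
      (fun p : Fin k → E => ∑ i, p i) ∘ (fun G i => u i • G i) := rfl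
  rw [h2, ← Measure.map_map (by fun_prop) (by fun_prop), h1]
  have : ∀ i, IsProbabilityMeasure ((stdGaussian E).map (fun g => u i • g)) := fun i =>
    Measure.isProbabilityMeasure_map (by fun_prop)
  apply Measure.ext_of_charFun
  ext t
  rw [charFun_map_sum_pi_eq_prod]
  simp only [Finset.prod_apply, charFun_map_smul, charFun_stdGaussian, ← Complex.exp_sum]
  congr 1
  simp only [norm_smul, Real.norm_eq_abs]
  have : ∀ i, (-((|u i| * ‖t‖ : ℝ) : ℂ) ^ 2 / 2) = ((u i ^ 2 : ℝ) : ℂ) * (-(‖t‖ : ℂ) ^ 2 / 2) := by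
    intro i
    have : ((|u i| * ‖t‖ : ℝ) : ℂ) ^ 2 = ((u i ^ 2 : ℝ) : ℂ) * (‖t‖ : ℂ) ^ 2 := by
      rw [← Complex.ofReal_pow, mul_pow, sq_abs]; push_cast; ring
    rw [this]; ring
  simp only [this, ← Finset.sum_mul, ← Complex.ofReal_sum, hu]
  simp

lemma lintegral_exp_sq_real :
    ∫⁻ x, ENNReal.ofReal (Real.exp (x ^ 2 / 4)) ∂gaussianReal 0 1 ≤ 2 := by
  rw [gaussianReal_of_var_ne_zero 0 one_ne_zero,
    lintegral_withDensity_eq_lintegral_mul _ (measurable_gaussianPDF 0 1) (by fun_prop)]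
  have h1 : ∀ x : ℝ, (gaussianPDF 0 1 * fun x => ENNReal.ofReal (Real.exp (x ^ 2 / 4))) x =
      ENNReal.ofReal ((√(2 * Real.pi))⁻¹ * Real.exp (-(1/4) * x ^ 2)) := by
    intro x
    simp only [Pi.mul_apply, gaussianPDF]
    rw [← ENNReal.ofReal_mul (gaussianPDFReal_nonneg _ _ _)]
    congr 1
    simp only [gaussianPDFReal, NNReal.coe_one, mul_one, sub_zero, mul_assoc, ← Real.exp_add]
    congr 2; ring
  simp_rw [h1]
  have hint : Integrable (fun x : ℝ => (√(2 * Real.pi))⁻¹ * Real.exp (-(1/4) * x ^ 2)) :=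
    (integrable_exp_neg_mul_sq (by norm_num : (0:ℝ) < 1/4)).const_mul _
  rw [← ofReal_integral_eq_lintegral_ofReal hint (ae_of_all _ fun x => by positivity),
    integral_const_mul, integral_gaussian]
  have : (√(2 * Real.pi))⁻¹ * √(Real.pi / (1/4)) ≤ 2 := by
    have hp := Real.pi_pos
    rw [inv_mul_le_iff₀ (by positivity)]
    apply Real.sqrt_le_iff.2
    refine ⟨by positivity, ?_⟩
    rw [mul_pow, Real.sq_sqrt (by positivity)]
    linarith
  calc _ ≤ ENNReal.ofReal 2 := ENNReal.ofReal_le_ofReal this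
    _ = 2 := by simp

lemma lintegral_pi_succ {X : Type} [MeasurableSpace X] (μ : Measure X) [SigmaFinite μ] (n : ℕ)
    (F : (Fin (n + 1) → X) → ℝ≥0∞) (hF : Measurable F) :
    ∫⁻ x, F x ∂(Measure.pi fun _ : Fin (n + 1) => μ) =
      ∫⁻ a, ∫⁻ x, F (Fin.cons a x) ∂(Measure.pi fun _ : Fin n => μ) ∂μ := by
  have h := (measurePreserving_piFinSuccAbove (fun _ : Fin (n + 1) => μ) 0).symm
  rw [← h.lintegral_comp hF, lintegral_prod]
  · simp [MeasurableEquiv.piFinSuccAbove_symm_apply, Fin.insertNthEquiv, Fin.insertNth_zero']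
  · exact (hF.comp (MeasurableEquiv.measurable _)).aemeasurable

lemma lintegral_pi_prod {X : Type} [MeasurableSpace X] (μ : Measure X) [SigmaFinite μ]
    (f : X → ℝ≥0∞) (hf : Measurable f) (n : ℕ) :
    ∫⁻ x, ∏ i, f (x i) ∂(Measure.pi fun _ : Fin n => μ) = (∫⁻ a, f a ∂μ) ^ n := by
  induction n with
  | zero => simp
  | succ n ih =>
    rw [lintegral_pi_succ μ n _ (by fun_prop)]
    simp only [Fin.prod_univ_succ, Fin.cons_zero, Fin.cons_succ]
    have : ∀ a, ∫⁻ x, f a * ∏ i, f (x i) ∂(Measure.pi fun _ : Fin n => μ) =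
        f a * (∫⁻ a, f a ∂μ) ^ n := by
      intro a; rw [lintegral_const_mul _ (by fun_prop), ih]
    simp_rw [this]
    rw [lintegral_mul_const _ hf, pow_succ']

lemma lintegral_exp_sq :
    ∫⁻ g, ENNReal.ofReal (Real.exp (‖g‖ ^ 2 / 4)) ∂stdGaussian E ≤ 2 ^ Module.finrank ℝ E := by
  set b := stdOrthonormalBasis ℝ E
  rw [stdGaussian_eq_map_pi_orthonormalBasis b, lintegral_map (by fun_prop) (by fun_prop)]
  have h1 : ∀ x : Fin (Module.finrank ℝ E) → ℝ,
      ENNReal.ofReal (Real.exp (‖∑ i, x i • b i‖ ^ 2 / 4)) =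
        ∏ i, ENNReal.ofReal (Real.exp (x i ^ 2 / 4)) := by
    intro x
    rw [← ENNReal.ofReal_prod_of_nonneg (fun i _ => by positivity), ← Real.exp_sum,
      ← Finset.sum_div]
    congr 3
    rw [← b.sum_sq_inner_right]
    apply Finset.sum_congr rfl
    intro i _
    rw [b.orthonormal.inner_right_fintype]
  simp_rw [h1]
  rw [lintegral_pi_prod (gaussianReal 0 1) (fun x : ℝ => ENNReal.ofReal (Real.exp (x ^ 2 / 4)))
    (by fun_prop)]
  gcongr
  exact lintegral_exp_sq_real

lemma tail_norm (R : ℝ) (hR : 0 ≤ R) :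
    stdGaussian E {g | R ≤ ‖g‖} ≤
      2 ^ Module.finrank ℝ E * ENNReal.ofReal (Real.exp (-(R ^ 2 / 4))) := by
  have hs : MeasurableSet {g : E | R ≤ ‖g‖} := measurableSet_le (by fun_prop) (by fun_prop)
  calc stdGaussian E {g | R ≤ ‖g‖} = ∫⁻ g, ({g : E | R ≤ ‖g‖}).indicator 1 g ∂stdGaussian E := by
        rw [lintegral_indicator_one hs]
    _ ≤ ∫⁻ g, ENNReal.ofReal (Real.exp (‖g‖ ^ 2 / 4)) *
          ENNReal.ofReal (Real.exp (-(R ^ 2 / 4))) ∂stdGaussian E := by
        apply lintegral_mono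
        intro g
        by_cases hg : g ∈ {g : E | R ≤ ‖g‖}
        · simp only [indicator_of_mem hg, Pi.one_apply]
          rw [← ENNReal.ofReal_mul (by positivity), ← Real.exp_add, ← ENNReal.ofReal_one]
          apply ENNReal.ofReal_le_ofReal
          apply Real.one_le_exp
          have : R ^ 2 ≤ ‖g‖ ^ 2 := pow_le_pow_left₀ hR hg 2
          linarith
        · simp [indicator_of_notMem hg]
    _ ≤ _ := by
        rw [lintegral_mul_const _ (by fun_prop)]
        gcongr
        exact lintegral_exp_sq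

/-- The set of pairs `(G, y)` compatible with `y = G x` for some `x` in the unit ball. -/
def Zset (E : Type) [NormedAddCommGroup E] [InnerProductSpace ℝ E] (k : ℕ) :
    Set ((Fin k → E) × (Fin k → ℝ)) :=
  {z | ∑ i, z.2 i ^ 2 ≤ ‖∑ i, z.2 i • z.1 i‖}

omit [FiniteDimensional ℝ E] [MeasurableSpace E] [BorelSpace E] in
lemma mem_Zset {k : ℕ} (G : Fin k → E) (x : E) (hx : ‖x‖ ≤ 1) :
    (G, fun i => ⟪G i, x⟫) ∈ Zset E k := by
  simp only [Zset, mem_ofPred_eq]
  have h1 : ∑ i, ⟪G i, x⟫ ^ 2 = ⟪∑ i, ⟪G i, x⟫ • G i, x⟫ := by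
    rw [sum_inner]; apply Finset.sum_congr rfl; intro i _; rw [real_inner_smul_left]; ring
  rw [h1]
  calc _ ≤ ‖∑ i, ⟪G i, x⟫ • G i‖ * ‖x‖ := real_inner_le_norm _ _
    _ ≤ ‖∑ i, ⟪G i, x⟫ • G i‖ * 1 := by gcongr
    _ = _ := mul_one _

lemma measurableSet_Zset (k : ℕ) : MeasurableSet (Zset E k) :=
  measurableSet_le (f := fun z : (Fin k → E) × (Fin k → ℝ) => ∑ i, z.2 i ^ 2)
    (g := fun z => ‖∑ i, z.2 i • z.1 i‖) (by fun_prop) (by fun_prop)

lemma lintegral_exp_neg_sq : ∫⁻ x : ℝ, ENNReal.ofReal (Real.exp (-(x ^ 2 / 4))) ≤ 4 := by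
  have h1 : ∀ x : ℝ, -(x ^ 2 / 4) = -(1/4) * x ^ 2 := fun x => by ring
  simp_rw [h1]
  have hint : Integrable (fun x : ℝ => Real.exp (-(1/4) * x ^ 2)) :=
    integrable_exp_neg_mul_sq (by norm_num : (0:ℝ) < 1/4)
  rw [← ofReal_integral_eq_lintegral_ofReal hint (ae_of_all _ fun x => by positivity),
    integral_gaussian]
  have : √(Real.pi / (1/4)) ≤ 4 := by
    apply Real.sqrt_le_iff.2
    refine ⟨by positivity, ?_⟩
    have := Real.pi_le_four
    linarith
  calc _ ≤ ENNReal.ofReal 4 := ENNReal.ofReal_le_ofReal this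
    _ = 4 := by simp

lemma measure_Zset (k : ℕ) :
    ((Measure.pi fun _ : Fin k => stdGaussian E).prod (volume : Measure (Fin k → ℝ))) (Zset E k)
      ≤ 2 ^ Module.finrank ℝ E * 4 ^ k := by
  rw [Measure.prod_apply_symm (measurableSet_Zset k)]
  have h1 : ∀ y : Fin k → ℝ,
      (Measure.pi fun _ : Fin k => stdGaussian E) ((fun G => (G, y)) ⁻¹' Zset E k) ≤
        2 ^ Module.finrank ℝ E * ∏ i, ENNReal.ofReal (Real.exp (-(y i ^ 2 / 4))) := by
    intro y
    rw [← ENNReal.ofReal_prod_of_nonneg (fun i _ => by positivity), ← Real.exp_sum,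
      Finset.sum_neg_distrib, ← Finset.sum_div]
    set s := ∑ i, y i ^ 2 with hs
    have hs0 : 0 ≤ s := Finset.sum_nonneg fun i _ => sq_nonneg _
    rcases hs0.eq_or_lt with h0 | hpos
    · rw [← h0]
      calc _ ≤ 1 := prob_le_one
        _ ≤ _ := by simp [one_le_pow_of_one_le']
    · have hR : 0 < √s := Real.sqrt_pos.2 hpos
      have hu : ∑ i, (y i / √s) ^ 2 = 1 := by
        simp only [div_pow, Real.sq_sqrt hs0, ← Finset.sum_div, ← hs]; exact div_self hpos.ne'
      have hsub : ((fun G => (G, y)) ⁻¹' Zset E k) ⊆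
          (fun G : Fin k → E => ∑ i, (y i / √s) • G i) ⁻¹' {g | √s ≤ ‖g‖} := by
        intro G hG
        simp only [Zset, mem_preimage, mem_ofPred_eq, ← hs] at hG ⊢
        have : ∑ i, (y i / √s) • G i = (√s)⁻¹ • ∑ i, y i • G i := by
          rw [Finset.smul_sum]; apply Finset.sum_congr rfl; intro i _
          rw [smul_smul, div_eq_inv_mul]
        rw [this, norm_smul, norm_inv, Real.norm_eq_abs, abs_of_pos hR, le_inv_mul_iff₀ hR,
          Real.mul_self_sqrt hs0]
        exact hG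
      calc _ ≤ (Measure.pi fun _ : Fin k => stdGaussian E)
            ((fun G : Fin k → E => ∑ i, (y i / √s) • G i) ⁻¹' {g | √s ≤ ‖g‖}) := measure_mono hsub
        _ = stdGaussian E {g | √s ≤ ‖g‖} := by
            rw [← Measure.map_apply (by fun_prop) (measurableSet_le (by fun_prop) (by fun_prop)),
              map_sum_smul _ hu]
        _ ≤ _ := by
            have := tail_norm (E := E) (√s) hR.le
            rwa [Real.sq_sqrt hs0] at this
  calc _ ≤ ∫⁻ y : Fin k → ℝ,
        2 ^ Module.finrank ℝ E * ∏ i, ENNReal.ofReal (Real.exp (-(y i ^ 2 / 4))) :=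
        lintegral_mono h1
    _ ≤ _ := by
        rw [lintegral_const_mul _ (by fun_prop), volume_pi,
          lintegral_pi_prod volume (fun x : ℝ => ENNReal.ofReal (Real.exp (-(x ^ 2 / 4))))
            (by fun_prop)]
        gcongr
        exact lintegral_exp_neg_sq

end Crest.Agent.H5.Str
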