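import Mathlib

set_option autoImplicit false

namespace Crest.Agent.H5.Str

open MeasureTheory Set Metric
open scoped ENNReal NNReal RealInnerProductSpace

variable {E : Type} [NormedAddCommGroup E] [InnerProductSpace ℝ E] [FiniteDimensional ℝ E]
  [MeasurableSpace E] [BorelSpace E]

/-- Frostman condition of exponent `D` with constant `F`. -/
def Frost (ν : Measure E) (F : ℝ≥0∞) (D : ℕ) : Prop :=
  ∀ (c : E) (ρ : ℝ), 0 < ρ → ν (closedBall c ρ) ≤ F * ENNReal.ofReal (ρ ^ D)

/-- The part of the `ρ`-neighbourhood of `x₁ + W` within distance two of `x₁`. -/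
def tube (W : Submodule ℝ E) (x₁ : E) (ρ : ℝ) : Set E :=
  {x | ‖x - x₁‖ ≤ 2 ∧ ‖(x - x₁) - W.starProjection (x - x₁)‖ ≤ ρ}

lemma measurableSet_tube (W : Submodule ℝ E) (x₁ : E) (ρ : ℝ) : MeasurableSet (tube W x₁ ρ) := by
  have := W.starProjection.continuous
  apply MeasurableSet.inter
  · exact measurableSet_le (f := fun x : E => ‖x - x₁‖) (g := fun _ => 2) (by fun_prop)
      (by fun_prop)
  · exact measurableSet_le (f := fun x : E => ‖(x - x₁) - W.starProjection (x - x₁)‖)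
      (g := fun _ => ρ) (by fun_prop) (by fun_prop)

lemma measure_tube (ν : Measure E) [SFinite ν] (F : ℝ≥0∞) (D : ℕ) (hν : Frost ν F D)
    (W : Submodule ℝ E) (x₁ : E) (ρ : ℝ) (hρ : 0 < ρ) (hρ2 : ρ ≤ 2) :
    ν (tube W x₁ ρ) ≤ F * ENNReal.ofReal ((4 / ρ) ^ Module.finrank ℝ W * (2 * ρ) ^ D) := by
  set m := Module.finrank ℝ W with hm
  set μ : Measure W := Measure.addHaar with hμ
  set H : Set (E × W) := {z | z.1 ∈ tube W x₁ ρ ∧
    dist z.2 (W.orthogonalProjectionOnto (z.1 - x₁)) ≤ ρ} with hH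
  have hHm : MeasurableSet H := by
    apply MeasurableSet.inter (measurable_fst (measurableSet_tube W x₁ ρ))
    have := W.orthogonalProjectionOnto.continuous
    exact measurableSet_le (f := fun z : E × W => dist z.2 (W.orthogonalProjectionOnto (z.1 - x₁)))
      (g := fun _ => ρ) (by fun_prop) (by fun_prop)
  set b := μ (closedBall 0 1) with hb
  have hb0 : b ≠ 0 := (measure_closedBall_pos μ _ one_pos).ne'
  have hbt : b ≠ ∞ := measure_closedBall_lt_top.ne
  have h1 : (ν.prod μ) H = ENNReal.ofReal (ρ ^ m) * b * ν (tube W x₁ ρ) := by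
    rw [Measure.prod_apply hHm, ← lintegral_indicator_const (measurableSet_tube W x₁ ρ)]
    congr 1; ext x
    by_cases hx : x ∈ tube W x₁ ρ
    · rw [indicator_of_mem hx, hb, ← Measure.addHaar_closedBall' μ
        (W.orthogonalProjectionOnto (x - x₁)) hρ.le]
      congr 1; ext w; simp [hH, hx]
    · rw [indicator_of_notMem hx]
      have : Prod.mk x ⁻¹' H = ∅ := by ext w; simp [hH, hx]
      simp [this]
  have h2 : (ν.prod μ) H ≤ F * ENNReal.ofReal ((2 * ρ) ^ D) * (ENNReal.ofReal (4 ^ m) * b) := by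
    rw [Measure.prod_apply_symm hHm, hb, ← Measure.addHaar_closedBall' μ 0 (by norm_num : (0:ℝ) ≤ 4),
      ← lintegral_indicator_const measurableSet_closedBall]
    apply lintegral_mono
    intro w
    by_cases hw : w ∈ closedBall (0 : W) 4
    · simp only [indicator_of_mem hw]
      refine le_trans (measure_mono ?_) (hν (x₁ + w) (2 * ρ) (by positivity))
      intro x hx
      simp only [hH, tube, mem_preimage, mem_ofPred_eq] at hx
      obtain ⟨⟨_, h2⟩, h3⟩ := hx
      rw [mem_closedBall, dist_eq_norm]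
      rw [dist_eq_norm] at h3
      have h4 : ‖(w : E) - W.starProjection (x - x₁)‖ ≤ ρ := h3
      have : x - (x₁ + w) = ((x - x₁) - W.starProjection (x - x₁)) -
          ((w : E) - W.starProjection (x - x₁)) := by abel
      rw [this]
      exact (norm_sub_le _ _).trans (by linarith)
    · simp only [indicator_of_notMem hw]
      have : (fun x => (x, w)) ⁻¹' H = ∅ := by
        ext x
        simp only [hH, tube, mem_preimage, mem_ofPred_eq, mem_empty_iff_false, iff_false]
        rintro ⟨⟨h1, _⟩, h3⟩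
        apply hw
        rw [mem_closedBall, dist_zero_right]
        rw [dist_eq_norm] at h3
        have h4 : ‖W.orthogonalProjectionOnto (x - x₁)‖ ≤ ‖x - x₁‖ :=
          W.norm_orthogonalProjectionOnto_apply_le _
        have : w = (w - W.orthogonalProjectionOnto (x - x₁)) + W.orthogonalProjectionOnto (x - x₁) := by
          abel
        rw [this]
        exact (norm_add_le _ _).trans (by linarith)
      simp [this]
  have hc0 : ENNReal.ofReal (ρ ^ m) * b ≠ 0 :=
    mul_ne_zero (ENNReal.ofReal_pos.2 (by positivity)).ne' hb0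
  have hct : ENNReal.ofReal (ρ ^ m) * b ≠ ∞ := ENNReal.mul_ne_top ENNReal.ofReal_ne_top hbt
  rw [← ENNReal.mul_le_mul_iff_right hc0 hct, ← h1]
  refine h2.trans (le_of_eq ?_)
  have : ENNReal.ofReal ((2 * ρ) ^ D) * ENNReal.ofReal (4 ^ m) =
      ENNReal.ofReal (ρ ^ m) * ENNReal.ofReal ((4 / ρ) ^ m * (2 * ρ) ^ D) := by
    rw [← ENNReal.ofReal_mul (by positivity), ← ENNReal.ofReal_mul (by positivity)]
    congr 1; rw [div_pow]; field_simp
  calc F * ENNReal.ofReal ((2 * ρ) ^ D) * (ENNReal.ofReal (4 ^ m) * b)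
      = F * b * (ENNReal.ofReal ((2 * ρ) ^ D) * ENNReal.ofReal (4 ^ m)) := by ring
    _ = _ := by rw [this]; ring

lemma exists_dyadic (δ η : ℝ) (h0 : 0 ≤ δ) (h2 : δ ≤ 2) (hη : 0 < η) (a b : ℝ≥0∞) (hab : a ≤ b)
    (h : δ ≠ 0 → a ≤ b * ENNReal.ofReal (η / δ)) :
    ∃ j : ℕ, δ ≤ 2 / 2 ^ j ∧ a ≤ b * ENNReal.ofReal (η * 2 ^ j) := by
  rcases h0.eq_or_lt with h0 | h0
  · obtain ⟨j, hj⟩ := pow_unbounded_of_one_lt (1 / η) (by norm_num : (1:ℝ) < 2)
    refine ⟨j, by rw [← h0]; positivity, hab.trans ?_⟩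
    have : (1 : ℝ≥0∞) ≤ ENNReal.ofReal (η * 2 ^ j) := by
      rw [← ENNReal.ofReal_one]; apply ENNReal.ofReal_le_ofReal
      rw [div_lt_iff₀ hη] at hj; linarith
    calc b = b * 1 := (mul_one _).symm
      _ ≤ _ := by gcongr
  · obtain ⟨j, hj1, hj2⟩ := exists_nat_pow_near (x := 2 / δ) (y := 2)
      (by rw [le_div_iff₀ h0]; linarith) (by norm_num)
    refine ⟨j, ?_, (h h0.ne').trans ?_⟩
    · rw [le_div_iff₀ h0] at hj1
      rw [le_div_iff₀ (by positivity)]; linarith
    · gcongr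
      rw [div_lt_iff₀ h0, pow_succ] at hj2
      rw [div_le_iff₀ h0, mul_assoc]
      apply le_mul_of_one_le_right hη.le
      linarith

lemma sum_tube (ν : Measure E) [SFinite ν] (D k : ℕ) (hν : Frost ν 1 D)
    (W : Submodule ℝ E) (hW : k + Module.finrank ℝ W + 1 ≤ D) (x₁ : E) (η : ℝ) (hη : 0 < η) :
    ∫⁻ x, ∑' j : ℕ, (tube W x₁ (2 / 2 ^ j)).indicator
      (fun _ => ENNReal.ofReal (η * 2 ^ j) ^ k) x ∂ν ≤ 8 ^ D * ENNReal.ofReal η ^ k := by
  set m := Module.finrank ℝ W with hm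
  rw [lintegral_tsum fun j =>
    (measurable_const.indicator (measurableSet_tube W x₁ _)).aemeasurable]
  have h1 : ∀ j : ℕ, ∫⁻ x, (tube W x₁ (2 / 2 ^ j)).indicator
      (fun _ => ENNReal.ofReal (η * 2 ^ j) ^ k) x ∂ν ≤
        ENNReal.ofReal (η ^ k * 2 ^ m * 4 ^ D) * (2⁻¹) ^ j := by
    intro j
    have hj : (1:ℝ) ≤ 2 ^ j := one_le_pow₀ (by norm_num)
    rw [lintegral_indicator_const (measurableSet_tube W x₁ _)]
    have := measure_tube ν 1 D hν W x₁ (2 / 2 ^ j) (by positivity)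
      (by rw [div_le_iff₀ (by positivity)]; linarith)
    rw [one_mul] at this
    calc _ ≤ ENNReal.ofReal (η * 2 ^ j) ^ k *
          ENNReal.ofReal ((4 / (2 / 2 ^ j)) ^ m * (2 * (2 / 2 ^ j)) ^ D) := by gcongr
      _ = ENNReal.ofReal ((η * 2 ^ j) ^ k * ((4 / (2 / 2 ^ j)) ^ m * (2 * (2 / 2 ^ j)) ^ D)) := by
          rw [← ENNReal.ofReal_pow (by positivity), ← ENNReal.ofReal_mul (by positivity)]
      _ ≤ ENNReal.ofReal (η ^ k * 2 ^ m * 4 ^ D * (2⁻¹) ^ j) := by
          apply ENNReal.ofReal_le_ofReal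
          set t : ℝ := 2 ^ j with ht
          have e1 : (4 / (2 / t)) = 2 * t := by field_simp; norm_num
          have e2 : (2 * (2 / t)) = 4 / t := by ring
          have e3 : (2⁻¹ : ℝ) ^ j = 1 / t := by rw [ht, inv_pow, one_div]
          rw [e1, e2, e3, mul_pow, mul_pow, div_pow]
          have h4 : t ^ (k + m + 1) ≤ t ^ D := pow_le_pow_right₀ hj hW
          have htp : 0 < t := by positivity
          have : η ^ k * t ^ k * (2 ^ m * t ^ m * (4 ^ D / t ^ D)) =
              η ^ k * 2 ^ m * 4 ^ D * (1 / t) * (t ^ (k + m + 1) / t ^ D) := by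
            field_simp; ring
          rw [this]
          apply mul_le_of_le_one_right (by positivity)
          rw [div_le_one (by positivity)]; exact h4
      _ = _ := by
          rw [ENNReal.ofReal_mul (by positivity), ENNReal.ofReal_pow (p := 2⁻¹) (by positivity),
            ENNReal.ofReal_inv_of_pos (by norm_num)]
          simp
  calc _ ≤ ∑' j : ℕ, ENNReal.ofReal (η ^ k * 2 ^ m * 4 ^ D) * (2⁻¹) ^ j :=
        ENNReal.tsum_le_tsum h1
    _ = ENNReal.ofReal (η ^ k * 2 ^ m * 4 ^ D) * 2 := by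
        rw [ENNReal.tsum_mul_left, ENNReal.tsum_geometric]; simp
    _ = ENNReal.ofReal (η ^ k * 2 ^ m * 4 ^ D * 2) := by
        rw [ENNReal.ofReal_mul (p := η ^ k * 2 ^ m * 4 ^ D) (by positivity)]; simp
    _ ≤ ENNReal.ofReal (8 ^ D * η ^ k) := by
        apply ENNReal.ofReal_le_ofReal
        have h3 : (2:ℝ) ^ (m + 1) ≤ 2 ^ D := pow_le_pow_right₀ (by norm_num) (by omega)
        have h4 : (8:ℝ) ^ D = 2 ^ D * 4 ^ D := by rw [← mul_pow]; norm_num
        rw [h4]
        calc η ^ k * 2 ^ m * 4 ^ D * 2 = 2 ^ (m + 1) * 4 ^ D * η ^ k := by ring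
          _ ≤ _ := by gcongr
    _ = _ := by
        rw [ENNReal.ofReal_mul (by positivity), ENNReal.ofReal_pow (by positivity),
          ENNReal.ofReal_pow hη.le]
        simp

end Crest.Agent.H5.Str
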