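import Crest.Agent.H5.Str.Gauss
import Crest.Agent.H5.Str.Tube

set_option autoImplicit false

namespace Crest.Agent.H5.Str

open MeasureTheory ProbabilityTheory Set Metric Filter
open scoped ENNReal NNReal RealInnerProductSpace Topology

variable {E : Type} [NormedAddCommGroup E] [InnerProductSpace ℝ E] [FiniteDimensional ℝ E]
  [MeasurableSpace E] [BorelSpace E]

/-- The law of `k` independent standard Gaussian vectors. -/
noncomputable abbrev Gam (E : Type) [NormedAddCommGroup E] [InnerProductSpace ℝ E]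
    [FiniteDimensional ℝ E] [MeasurableSpace E] (k : ℕ) : Measure (Fin k → E) :=
  Measure.pi fun _ : Fin k => stdGaussian E

/-- The measurements. -/
def ev {k : ℕ} (G : Fin k → E) (x : E) : Fin k → ℝ := fun i => ⟪G i, x⟫

lemma measurable_ev {k : ℕ} : Measurable (fun z : (Fin k → E) × E => ev z.1 z.2) := by
  unfold ev; fun_prop

/-- Rows nearly orthogonal to all the vectors in `vs`. -/
def Eone (vs : Finset E) (η : ℝ) : Set E := {g | ∀ v ∈ vs, |⟪g, v⟫| ≤ η}

lemma measurableSet_Eone (vs : Finset E) (η : ℝ) : MeasurableSet (Eone vs η) := by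
  have : Eone vs η = ⋂ v ∈ vs, {g | |⟪g, v⟫| ≤ η} := by ext g; simp [Eone]
  rw [this]
  exact Finset.measurableSet_biInter _ fun v _ => measurableSet_le (by fun_prop) (by fun_prop)

/-- Mass of the points whose measurements are close to those of a base point. -/
noncomputable def mass (ν : Measure E) (k : ℕ) (η : ℝ) (z : (Fin k → E) × E) : ℝ≥0∞ :=
  ν {x | ∀ i, |⟪z.1 i, x - z.2⟫| ≤ η}

lemma measurableSet_near (k : ℕ) (η : ℝ) :
    MeasurableSet {w : ((Fin k → E) × E) × E | ∀ i, |⟪w.1.1 i, w.2 - w.1.2⟫| ≤ η} := by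
  simp only [ofPred_forall]
  exact MeasurableSet.iInter fun i => measurableSet_le (by fun_prop) (by fun_prop)

lemma measurable_mass (ν : Measure E) [SFinite ν] (k : ℕ) (η : ℝ) : Measurable (mass ν k η) :=
  measurable_measure_prodMk_left (ν := ν) (measurableSet_near k η)

lemma Eone_step (ν : Measure E) [SFinite ν] (D k : ℕ) (hν : Frost ν 1 D)
    (hs : ∀ᵐ x ∂ν, ‖x‖ ≤ 1) (x₁ : E) (hx₁ : ‖x₁‖ ≤ 1) (η : ℝ) (hη : 0 < η) [DecidableEq E]
    (vs : Finset E) (hvs : k + vs.card + 1 ≤ D) :
    ∫⁻ x, stdGaussian E (Eone (insert (x - x₁) vs) η) ^ k ∂ν ≤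
      stdGaussian E (Eone vs η) ^ k * (8 ^ D * ENNReal.ofReal η ^ k) := by
  set W : Submodule ℝ E := Submodule.span ℝ (vs : Set E) with hW
  have hdim : Module.finrank ℝ W ≤ vs.card := finrank_span_finset_le_card vs
  have hinv : ∀ g, g ∈ Eone vs η ↔ W.starProjection g ∈ Eone vs η := by
    intro g
    simp only [Eone, mem_ofPred_eq]
    refine forall₂_congr fun v hv => ?_
    have hvW : v ∈ W := Submodule.subset_span hv
    rw [Submodule.inner_starProjection_left_eq_right, Submodule.starProjection_eq_self_iff.2 hvW]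
  have hsum := sum_tube ν D k hν W (by omega) x₁ η hη
  have hm : Measurable fun x => ∑' j : ℕ, (tube W x₁ (2 / 2 ^ j)).indicator
      (fun _ => ENNReal.ofReal (η * 2 ^ j) ^ k) x :=
    Measurable.tsum fun j => measurable_const.indicator (measurableSet_tube W x₁ _)
  refine le_trans ?_ (mul_le_mul_right hsum _)
  rw [← lintegral_const_mul _ hm]
  apply lintegral_mono_ae
  filter_upwards [hs] with x hx
  have hxx : ‖x - x₁‖ ≤ 2 := (norm_sub_le _ _).trans (by linarith)
  have hδ2 : ‖(x - x₁) - W.starProjection (x - x₁)‖ ≤ 2 := by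
    refine le_trans ?_ hxx
    rw [← Submodule.starProjection_orthogonal_val]
    exact Submodule.norm_starProjection_apply_le _ _
  have hE : Eone (insert (x - x₁) vs) η = Eone vs η ∩ {g | |⟪g, x - x₁⟫| ≤ η} := by
    ext g; simp [Eone, and_comm]
  obtain ⟨j, hj1, hj2⟩ := exists_dyadic _ η (norm_nonneg _) hδ2 hη
    (stdGaussian E (Eone (insert (x - x₁) vs) η)) (stdGaussian E (Eone vs η))
    (by rw [hE]; exact measure_mono inter_subset_left)
    (by
      intro h
      rw [hE]
      exact smallball W _ _ (measurableSet_Eone vs η) hinv η (by simpa using h))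
  have hmem : x ∈ tube W x₁ (2 / 2 ^ j) := ⟨hxx, hj1⟩
  calc stdGaussian E (Eone (insert (x - x₁) vs) η) ^ k
      ≤ (stdGaussian E (Eone vs η) * ENNReal.ofReal (η * 2 ^ j)) ^ k := by gcongr
    _ = stdGaussian E (Eone vs η) ^ k * (tube W x₁ (2 / 2 ^ j)).indicator
          (fun _ => ENNReal.ofReal (η * 2 ^ j) ^ k) x := by
        rw [indicator_of_mem hmem, mul_pow]
    _ ≤ _ := by
        gcongr
        exact ENNReal.le_tsum (f := fun j : ℕ => (tube W x₁ (2 / 2 ^ j)).indicator
          (fun _ => ENNReal.ofReal (η * 2 ^ j) ^ k) x) j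

lemma moment_aux (ν : Measure E) [SFinite ν] (D k p : ℕ) (hν : Frost ν 1 D)
    (hs : ∀ᵐ x ∂ν, ‖x‖ ≤ 1) (x₁ : E) (hx₁ : ‖x₁‖ ≤ 1) (η : ℝ) (hη : 0 < η) (hD : k + p ≤ D)
    (j : ℕ) : ∀ vs : Finset E, vs.card + j ≤ p →
    ∫⁻ G, (Set.pi univ fun _ : Fin k => Eone vs η).indicator
        (fun G => mass ν k η (G, x₁) ^ j) G ∂Gam E k ≤
      stdGaussian E (Eone vs η) ^ k * (8 ^ D * ENNReal.ofReal η ^ k) ^ j := by
  classical
  have hpm : ∀ vs : Finset E, MeasurableSet (Set.pi univ fun _ : Fin k => Eone vs η) :=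
    fun vs => MeasurableSet.univ_pi fun _ => measurableSet_Eone vs η
  have hmm : Measurable fun G : Fin k → E => mass ν k η (G, x₁) :=
    (measurable_mass ν k η).comp measurable_prodMk_right
  induction j with
  | zero =>
    intro vs _
    simp only [pow_zero, mul_one]
    rw [lintegral_indicator_const (hpm vs), one_mul, Measure.pi_pi]
    simp
  | succ j ih =>
    intro vs hvs
    set N : Set ((Fin k → E) × E) := {w | ∀ i, |⟪w.1 i, w.2 - x₁⟫| ≤ η} with hN
    have hNm : MeasurableSet N := by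
      simp only [hN, ofPred_forall]
      exact MeasurableSet.iInter fun i => measurableSet_le (by fun_prop) (by fun_prop)
    set f : (Fin k → E) → ℝ≥0∞ := (Set.pi univ fun _ : Fin k => Eone vs η).indicator
        (fun G => mass ν k η (G, x₁) ^ j) with hf
    have hfm : Measurable f := (hmm.pow_const j).indicator (hpm vs)
    have h1 : ∀ G, (Set.pi univ fun _ : Fin k => Eone vs η).indicator
        (fun G => mass ν k η (G, x₁) ^ (j + 1)) G =
        ∫⁻ x, N.indicator (fun w => f w.1) (G, x) ∂ν := by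
      intro G
      have : (fun x => N.indicator (fun w => f w.1) (G, x)) =
          (Prod.mk G ⁻¹' N).indicator (fun _ => f G) := by
        ext x; by_cases h : (G, x) ∈ N <;> simp [indicator, h]
      rw [this, lintegral_indicator_const (measurable_prodMk_left hNm)]
      by_cases hG : G ∈ Set.pi univ fun _ : Fin k => Eone vs η
      · rw [hf, indicator_of_mem hG, indicator_of_mem hG, pow_succ]; rfl
      · rw [hf, indicator_of_notMem hG, indicator_of_notMem hG, zero_mul]
    simp_rw [h1]
    rw [lintegral_lintegral_swap (f := fun G x => N.indicator (fun w => f w.1) (G, x))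
      ((hfm.comp measurable_fst).indicator hNm).aemeasurable]
    have h2 : ∀ x, ∫⁻ G, N.indicator (fun w => f w.1) (G, x) ∂Gam E k ≤
        stdGaussian E (Eone (insert (x - x₁) vs) η) ^ k * (8 ^ D * ENNReal.ofReal η ^ k) ^ j := by
      intro x
      refine le_trans (le_of_eq ?_) (ih (insert (x - x₁) vs)
        (by have := Finset.card_insert_le (x - x₁) vs; omega))
      congr 1; ext G
      by_cases h : (G, x) ∈ N
      · rw [indicator_of_mem h]
        simp only [hf, indicator]
        congr 1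
        simp only [hN, mem_ofPred_eq] at h
        simp [Eone, h]
      · rw [indicator_of_notMem h, indicator_of_notMem]
        intro h'
        apply h
        intro i
        exact h' i (mem_univ i) _ (Finset.mem_insert_self _ _)
    calc _ ≤ ∫⁻ x, stdGaussian E (Eone (insert (x - x₁) vs) η) ^ k *
          (8 ^ D * ENNReal.ofReal η ^ k) ^ j ∂ν := lintegral_mono h2
      _ = (∫⁻ x, stdGaussian E (Eone (insert (x - x₁) vs) η) ^ k ∂ν) *
          (8 ^ D * ENNReal.ofReal η ^ k) ^ j := by
          rw [lintegral_mul_const']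
          exact ENNReal.pow_ne_top (ENNReal.mul_ne_top (by simp) (by simp))
      _ ≤ (stdGaussian E (Eone vs η) ^ k * (8 ^ D * ENNReal.ofReal η ^ k)) *
          (8 ^ D * ENNReal.ofReal η ^ k) ^ j := by
          gcongr
          exact Eone_step ν D k hν hs x₁ hx₁ η hη vs (by omega)
      _ = _ := by ring

lemma moment (ν : Measure E) [SFinite ν] (D k p : ℕ) (hν : Frost ν 1 D)
    (hs : ∀ᵐ x ∂ν, ‖x‖ ≤ 1) (x₁ : E) (hx₁ : ‖x₁‖ ≤ 1) (η : ℝ) (hη : 0 < η) (hD : k + p ≤ D) :
    ∫⁻ G, mass ν k η (G, x₁) ^ p ∂Gam E k ≤ (8 ^ D * ENNReal.ofReal η ^ k) ^ p := by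
  have := moment_aux ν D k p hν hs x₁ hx₁ η hη hD p ∅ (by simp)
  simpa [Eone] using this

omit [InnerProductSpace ℝ E] [FiniteDimensional ℝ E] [BorelSpace E] in
lemma Frost.univ_le {ν : Measure E} {D : ℕ} (hν : Frost ν 1 D) (hs : ∀ᵐ x ∂ν, ‖x‖ ≤ 1) :
    ν univ ≤ 1 := by
  have h1 : ν univ ≤ ν (closedBall 0 1) := by
    apply measure_mono_ae
    filter_upwards [hs] with x hx _
    show x ∈ closedBall (0:E) 1
    simpa using hx
  simpa using h1.trans (hν 0 1 one_pos)

lemma fixed_G (ν : Measure E) [IsFiniteMeasure ν] (k p : ℕ) (t : ℝ≥0) (ht : t ≠ 0)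
    (G : Fin k → E) (S : Set (Fin k → ℝ)) :
    ν (ev G ⁻¹' S) ≤ t * volume S + ∫⁻ x, liminf (fun n : ℕ =>
      (mass ν k (1 / (n + 1)) (G, x) / (t * ENNReal.ofReal (1 / (n + 1)) ^ k)) ^ p) atTop ∂ν := by
  have hev : Measurable (ev G) := measurable_ev.comp measurable_prodMk_left
  set m : Measure (Fin k → ℝ) := ν.map (ev G) with hm
  set Good : Set (Fin k → ℝ) := {y | ∃ᶠ n : ℕ in atTop,
    m (closedBall y (1 / (n + 1))) ≤ (t • (volume : Measure (Fin k → ℝ)))
      (closedBall y (1 / (n + 1)))} with hGood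
  have htend : Tendsto (fun n : ℕ => (1 : ℝ) / (n + 1)) atTop (𝓝[>] 0) := by
    apply tendsto_nhdsWithin_of_tendsto_nhds_of_eventually_within _
      tendsto_one_div_add_atTop_nhds_zero_nat
    exact Eventually.of_forall fun n => by simp only [mem_Ioi]; positivity
  have h1 : m (S ∩ Good) ≤ (t • (volume : Measure (Fin k → ℝ))) (S ∩ Good) := by
    apply (Besicovitch.vitaliFamily m).measure_le_of_frequently_le _ Measure.AbsolutelyContinuous.rfl
    intro y hy
    exact ((Besicovitch.tendsto_filterAt m y).comp htend).frequently hy.2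
  set f : E → ℝ≥0∞ := fun x => liminf (fun n : ℕ =>
      (mass ν k (1 / (n + 1)) (G, x) / (t * ENNReal.ofReal (1 / (n + 1)) ^ k)) ^ p) atTop with hf
  have hfm : Measurable f := by
    apply Measurable.liminf
    intro n
    exact (((measurable_mass ν k _).comp measurable_prodMk_left).div_const _).pow_const p
  have hsub : ev G ⁻¹' S ⊆ ev G ⁻¹' (S ∩ Good) ∪ {x | 1 ≤ f x} := by
    intro x hx
    by_cases hg : ev G x ∈ Good
    · exact Or.inl ⟨hx, hg⟩
    · right
      simp only [hGood, mem_ofPred_eq, not_frequently, not_le] at hg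
      rw [mem_ofPred_eq, hf]
      refine le_liminf_of_le (by isBoundedDefault) ?_
      filter_upwards [hg] with n hn
      have hη : (0:ℝ) < 1 / (n + 1) := by positivity
      generalize (1 : ℝ) / (n + 1) = η at hn hη
      apply one_le_pow_of_one_le'
      have e1 : m (closedBall (ev G x) η) = mass ν k η (G, x) := by
        rw [hm, Measure.map_apply hev measurableSet_closedBall, mass]
        congr 1; ext x'
        simp only [mem_preimage, mem_closedBall, dist_pi_le_iff hη.le, Real.dist_eq, ev,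
          mem_ofPred_eq, inner_sub_right]
      rw [e1, Measure.smul_apply, Real.volume_pi_closedBall _ hη.le] at hn
      rw [ENNReal.le_div_iff_mul_le (Or.inl ?_) (Or.inl ?_), one_mul]
      · refine le_trans ?_ hn.le
        simp only [Fintype.card_fin, ENNReal.smul_def, smul_eq_mul]
        rw [← ENNReal.ofReal_pow hη.le]
        gcongr; linarith
      · exact mul_ne_zero (by simpa using ht) (pow_ne_zero _ (ENNReal.ofReal_pos.2 hη).ne')
      · exact ENNReal.mul_ne_top (by simp) (by simp)
  calc ν (ev G ⁻¹' S) ≤ ν (ev G ⁻¹' (S ∩ Good)) + ν {x | 1 ≤ f x} :=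
        (measure_mono hsub).trans (measure_union_le _ _)
    _ ≤ t * volume S + ∫⁻ x, f x ∂ν := by
        gcongr
        · refine (Measure.le_map_apply hev.aemeasurable _).trans (h1.trans ?_)
          rw [Measure.smul_apply, ENNReal.smul_def, smul_eq_mul]
          gcongr; exact inter_subset_left
        · simpa using mul_meas_ge_le_lintegral hfm 1

/-- The key estimate: the law of `(G, G x)` is dominated by a multiple of the reference measure
up to a small error. -/
lemma key (ν : Measure E) [SFinite ν] (D k p : ℕ) (hν : Frost ν 1 D)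
    (hs : ∀ᵐ x ∂ν, ‖x‖ ≤ 1) (hD : k + p ≤ D) (t : ℝ≥0) (ht : t ≠ 0)
    (S : Set ((Fin k → E) × (Fin k → ℝ))) (hS : MeasurableSet S) :
    ∫⁻ x, Gam E k {G | (G, ev G x) ∈ S} ∂ν ≤
      t * ((Gam E k).prod (volume : Measure (Fin k → ℝ))) S + (8 ^ D / t) ^ p := by
  have hu := hν.univ_le hs
  have : IsFiniteMeasure ν := ⟨hu.trans_lt ENNReal.one_lt_top⟩
  set H : Set ((Fin k → E) × E) := {z | (z.1, ev z.1 z.2) ∈ S} with hH
  have hHm : MeasurableSet H := (measurable_fst.prodMk measurable_ev) hS
  have h1 : ∫⁻ x, Gam E k {G | (G, ev G x) ∈ S} ∂ν =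
      ∫⁻ G, ν (ev G ⁻¹' (Prod.mk G ⁻¹' S)) ∂Gam E k := by
    have a1 := Measure.prod_apply (μ := Gam E k) (ν := ν) hHm
    have a2 := Measure.prod_apply_symm (μ := Gam E k) (ν := ν) hHm
    exact a2.symm.trans a1
  set b : ℕ → (Fin k → E) × E → ℝ≥0∞ := fun n z =>
    (mass ν k (1 / (n + 1)) z / (t * ENNReal.ofReal (1 / (n + 1)) ^ k)) ^ p with hb
  have hbm : ∀ n, Measurable (b n) := fun n =>
    ((measurable_mass ν k _).div_const _).pow_const p
  have hbi : ∀ n, ∫⁻ z, b n z ∂(Gam E k).prod ν ≤ (8 ^ D / t) ^ p := by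
    intro n
    rw [lintegral_prod_symm' _ (hbm n)]
    have hη : (0:ℝ) < 1 / (n + 1) := by positivity
    have hbn : ∀ z, b n z = mass ν k (1 / (n + 1)) z ^ p *
        ((t * ENNReal.ofReal (1 / (n + 1)) ^ k)⁻¹) ^ p := by
      intro z; simp only [hb, div_eq_mul_inv, mul_pow]
    simp_rw [hbn]
    generalize (1 : ℝ) / (n + 1) = η at hη
    have hη0 : ENNReal.ofReal η ^ k ≠ 0 := pow_ne_zero _ (ENNReal.ofReal_pos.2 hη).ne'
    have hηt : ENNReal.ofReal η ^ k ≠ ∞ := by simp
    calc _ ≤ ∫⁻ _x, (8 ^ D / t : ℝ≥0∞) ^ p ∂ν := by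
          apply lintegral_mono_ae
          filter_upwards [hs] with x hx
          rw [lintegral_mul_const (f := fun G => mass ν k η (G, x) ^ p) _
            (((measurable_mass ν k _).comp measurable_prodMk_right).pow_const p)]
          calc _ ≤ (8 ^ D * ENNReal.ofReal η ^ k) ^ p * ((t * ENNReal.ofReal η ^ k)⁻¹) ^ p := by
                gcongr
                exact moment ν D k p hν hs x hx η hη hD
            _ = _ := by
                rw [← mul_pow, ← div_eq_mul_inv, ENNReal.mul_div_mul_right _ _ hη0 hηt]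
      _ ≤ _ := by
          rw [lintegral_const]
          calc _ ≤ (8 ^ D / t : ℝ≥0∞) ^ p * 1 := by gcongr
            _ = _ := mul_one _
  rw [h1]
  calc _ ≤ ∫⁻ G, (t * volume (Prod.mk G ⁻¹' S) +
        ∫⁻ x, liminf (fun n => b n (G, x)) atTop ∂ν) ∂Gam E k :=
        lintegral_mono fun G => fixed_G ν k p t ht G _
    _ = t * ((Gam E k).prod (volume : Measure (Fin k → ℝ))) S +
        ∫⁻ z, liminf (fun n => b n z) atTop ∂(Gam E k).prod ν := by
        rw [lintegral_add_left ((measurable_measure_prodMk_left hS).const_mul _),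
          lintegral_const_mul _ (measurable_measure_prodMk_left hS), Measure.prod_apply hS,
          lintegral_prod _ (Measurable.liminf hbm).aemeasurable]
    _ ≤ _ := by
        gcongr
        refine (lintegral_liminf_le hbm).trans ?_
        exact liminf_le_of_frequently_le' (Frequently.of_forall hbi)

end Crest.Agent.H5.Str
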