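import Crest.Prelude.Def_StreamLearn
import Crest.Agent.H5.Str.Tube

set_option autoImplicit false

namespace Crest.Agent.H5.Str

open MeasureTheory Set Metric Crest.StreamLearn
open scoped ENNReal NNReal RealInnerProductSpace Pointwise

/-- The uniform measure on the sphere, as a measure on the ambient space. -/
noncomputable def lam (d : ℕ) : Measure (E d) := (sphereUniform d).map Subtype.val

instance (d : ℕ) : SFinite (sphereUniform d) := by unfold sphereUniform; infer_instance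

instance (d : ℕ) : SFinite (lam d) := by unfold lam; infer_instance

lemma vol_ball_ne_zero (d : ℕ) : volume (ball (0 : E d) 1) ≠ 0 :=
  (measure_ball_pos _ _ one_pos).ne'

lemma vol_ball_ne_top (d : ℕ) : volume (ball (0 : E d) 1) ≠ ∞ := measure_ball_lt_top.ne

lemma isProb_sphereUniform (d : ℕ) (hd : 0 < d) : IsProbabilityMeasure (sphereUniform d) := by
  constructor
  rw [sphereUniform, Measure.smul_apply, smul_eq_mul]
  apply ENNReal.inv_mul_cancel
  · rw [Measure.toSphere_apply_univ]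
    apply mul_ne_zero _ (vol_ball_ne_zero d)
    simp; omega
  · exact measure_ne_top _ _

lemma isProb_lam (d : ℕ) (hd : 0 < d) : IsProbabilityMeasure (lam d) := by
  have := isProb_sphereUniform d hd
  exact Measure.isProbabilityMeasure_map measurable_subtype_coe.aemeasurable

lemma lam_apply (d : ℕ) (hd : 0 < d) (s : Set (E d)) (hs : MeasurableSet s) :
    lam d s = (volume (ball (0 : E d) 1))⁻¹ * volume (Ioo (0:ℝ) 1 • (sphere (0 : E d) 1 ∩ s)) := by
  rw [lam, Measure.map_apply measurable_subtype_coe hs, sphereUniform, Measure.smul_apply,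
    smul_eq_mul, Measure.toSphere_apply_univ,
    Measure.toSphere_apply' _ (measurable_subtype_coe hs), Subtype.image_preimage_coe]
  have h0 : ((Module.finrank ℝ (E d) : ℕ) : ℝ≥0∞) ≠ 0 := by simp; omega
  have ht : ((Module.finrank ℝ (E d) : ℕ) : ℝ≥0∞) ≠ ∞ := by simp
  rw [ENNReal.mul_inv (Or.inl h0) (Or.inl ht), mul_comm (_ : ℝ≥0∞)⁻¹, mul_assoc, ← mul_assoc _ (_ : ℝ≥0∞) (volume _),
    ENNReal.inv_mul_cancel h0 ht, one_mul]

lemma lam_preimage (d : ℕ) (hd : 0 < d) (f : E d ≃ₗᵢ[ℝ] E d) (s : Set (E d))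
    (hs : MeasurableSet s) : lam d (f ⁻¹' s) = lam d s := by
  rw [lam_apply d hd _ hs, lam_apply d hd _ (f.continuous.measurable hs)]
  congr 1
  rw [← f.measurePreserving.measure_preimage_emb f.toHomeomorph.measurableEmbedding
    (Ioo (0:ℝ) 1 • (sphere (0 : E d) 1 ∩ s))]
  congr 1
  ext x
  simp only [mem_preimage, Set.mem_smul, mem_inter_iff, mem_sphere_zero_iff_norm]
  constructor
  · rintro ⟨t, ht, y, ⟨h1, h2⟩, rfl⟩
    exact ⟨t, ht, f y, ⟨by simpa using h1, h2⟩, by simp⟩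
  · rintro ⟨t, ht, y, ⟨h1, h2⟩, h3⟩
    refine ⟨t, ht, f.symm y, ⟨by simpa using h1, by simpa using h2⟩, ?_⟩
    apply f.injective
    simp [h3]

lemma lam_ae (d : ℕ) : ∀ᵐ x ∂lam d, ‖x‖ = 1 := by
  rw [lam, ae_map_iff measurable_subtype_coe.aemeasurable
    (measurableSet_eq_fun (by fun_prop) (by fun_prop))]
  exact ae_of_all _ fun x => by simp

lemma lam_tube (d : ℕ) (hd : 0 < d) (W : Submodule ℝ (E d)) (ρ : ℝ) (hρ : 0 < ρ) (hρ2 : ρ ≤ 2) :
    lam d (tube W 0 ρ) ≤ ENNReal.ofReal ((4 / ρ) ^ Module.finrank ℝ W * (2 * ρ) ^ d) := by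
  rw [lam_apply d hd _ (measurableSet_tube W 0 ρ)]
  have hF : Frost (volume : Measure (E d)) (volume (ball (0 : E d) 1)) d := by
    intro c r hr
    rw [Measure.addHaar_closedBall _ _ hr.le, mul_comm]; simp
  have h1 := measure_tube volume _ d hF W 0 ρ hρ hρ2
  have hsub : Ioo (0:ℝ) 1 • (sphere (0 : E d) 1 ∩ tube W 0 ρ) ⊆ tube W 0 ρ := by
    rintro _ ⟨t, ht, y, ⟨_, h2, h3⟩, rfl⟩
    simp only [sub_zero] at h2 h3
    have ht1 : |t| ≤ 1 := by rw [abs_of_pos ht.1]; exact ht.2.le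
    constructor
    · simp only [sub_zero, norm_smul, Real.norm_eq_abs]
      calc |t| * ‖y‖ ≤ 1 * 2 := by gcongr
        _ = 2 := by norm_num
    · simp only [sub_zero, map_smul, ← smul_sub, norm_smul, Real.norm_eq_abs]
      calc |t| * ‖y - W.starProjection y‖ ≤ 1 * ρ := by gcongr
        _ = ρ := by norm_num
  calc _ ≤ (volume (ball (0 : E d) 1))⁻¹ * (volume (ball (0 : E d) 1) *
        ENNReal.ofReal ((4 / ρ) ^ Module.finrank ℝ W * (2 * ρ) ^ d)) := by
        gcongr; exact (measure_mono hsub).trans h1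
    _ = _ := by
        rw [← mul_assoc, ENNReal.inv_mul_cancel (vol_ball_ne_zero d) (vol_ball_ne_top d), one_mul]

lemma lam_ball (e : ℕ) (c : E (e + 1)) (r : ℝ) (hr : 0 < r) :
    lam (e + 1) (closedBall c r) ≤ ENNReal.ofReal (8 * 4 ^ e * r ^ e) := by
  have := isProb_lam (e + 1) (by omega)
  rcases le_or_gt 1 r with h1 | h1
  · refine prob_le_one.trans ?_
    rw [← ENNReal.ofReal_one]
    apply ENNReal.ofReal_le_ofReal
    have a1 : (1:ℝ) ≤ 4 ^ e := one_le_pow₀ (by norm_num)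
    have a2 : (1:ℝ) ≤ r ^ e := one_le_pow₀ h1
    nlinarith
  · set W : Submodule ℝ (E (e + 1)) := Submodule.span ℝ {c} with hW
    have hdim : Module.finrank ℝ W ≤ 1 := by
      simpa using finrank_span_le_card (R := ℝ) ({c} : Set (E (e + 1)))
    have hle : lam (e + 1) (closedBall c r) ≤ lam (e + 1) (tube W 0 r) := by
      apply measure_mono_ae
      filter_upwards [lam_ae (e + 1)] with x hx hxc
      have hxc' : ‖x - c‖ ≤ r := by
        have : x ∈ closedBall c r := hxc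
        simpa [dist_eq_norm] using this
      refine ⟨by simp [hx], ?_⟩
      simp only [sub_zero]
      rw [Submodule.starProjection_minimal]
      refine le_trans (ciInf_le ⟨0, ?_⟩ (⟨c, Submodule.mem_span_singleton_self c⟩ : W)) hxc'
      rintro _ ⟨w, rfl⟩
      exact norm_nonneg _
    refine hle.trans ((lam_tube (e + 1) (by omega) W r hr (by linarith)).trans ?_)
    apply ENNReal.ofReal_le_ofReal
    have a1 : (1:ℝ) ≤ 4 / r := by rw [le_div_iff₀ hr]; linarith
    calc (4 / r) ^ Module.finrank ℝ W * (2 * r) ^ (e + 1) ≤ (4 / r) ^ 1 * (2 * r) ^ (e + 1) := by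
          gcongr
      _ = 8 * 2 ^ e * r ^ e := by rw [mul_pow]; field_simp; ring
      _ ≤ _ := by gcongr; norm_num

lemma norm_sub_le_of_arccos {d : ℕ} (o x : E d) (ho : ‖o‖ = 1) (hx : ‖x‖ = 1) (ε : ℝ)
    (h : Real.arccos ⟪o, x⟫ ≤ ε) : ‖x - o‖ ≤ ε := by
  have h1 : |⟪o, x⟫| ≤ 1 := by simpa [ho, hx] using abs_real_inner_le_norm o x
  have h2 := Real.cos_arccos (abs_le.1 h1).1 (abs_le.1 h1).2
  have h3 := Real.one_sub_sq_div_two_le_cos (x := Real.arccos ⟪o, x⟫)
  have h4 := Real.arccos_nonneg ⟪o, x⟫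
  have h5 : ‖x - o‖ ^ 2 = 2 - 2 * ⟪o, x⟫ := by
    rw [norm_sub_sq_real, ho, hx, real_inner_comm]; ring
  apply le_trans _ h
  apply le_of_sq_le_sq _ h4
  rw [h5]; linarith

end Crest.Agent.H5.Str
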