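import Crest.Agent.H5.Str.Run
import Crest.Agent.H5.Str.Sph

set_option autoImplicit false

namespace Crest.Agent.H5.Str

open MeasureTheory ProbabilityTheory Set Metric Crest.StreamLearn
open scoped ENNReal NNReal RealInnerProductSpace

variable {d T M : ℕ}

/-- Extended states. -/
def QL (L : RLearner d T M) : Type := L.St × Option ℕ

instance (L : RLearner d T M) : MeasurableSpace (QL L) := ⊤
instance (L : RLearner d T M) : DiscreteMeasurableSpace (QL L) := ⟨fun _ => trivial⟩
instance (L : RLearner d T M) : Countable (QL L) := by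
  have := L.fin
  unfold QL; infer_instance
instance (L : RLearner d T M) : MeasurableSpace L.Ω := L.mΩ
instance (L : RLearner d T M) : IsProbabilityMeasure L.ρ := L.prob

/-- One step of the learner on extended states. -/
def stepF (L : RLearner d T M) (ω : L.Ω) (t : ℕ) (st : QL L) (g : E d) (y : ℝ) : QL L :=
  if h : t < T then
    (if st.2.isSome then st else
      if (L.trans ⟨t, h⟩ ω st.1 g y).2 then ((L.trans ⟨t, h⟩ ω st.1 g y).1, some (t + 1))
      else ((L.trans ⟨t, h⟩ ω st.1 g y).1, none))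
  else st

/-- Initial extended state. -/
def initQ (L : RLearner d T M) (ω : L.Ω) : QL L :=
  (L.init ω, if L.stopFirst ω then some 0 else none)

/-- Output attached to an extended state. -/
def outQ (L : RLearner d T M) (ω : L.Ω) (q : QL L) : E d := L.out (q.2.getD T) ω q.1

lemma output_eq (L : RLearner d T M) (ω : L.Ω) (s : E d) (xs : Fin T → E d) :
    L.output ω s xs = outQ L ω (run (stepF L ω) T 0 (initQ L ω) xs (ev xs s)) := by
  have : L.run ω s xs = run (stepF L ω) T 0 (initQ L ω) xs (ev xs s) := by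
    rw [← foldl_eq_run, RLearner.run]
    congr 1
    ext1 q; ext1 i
    simp only [stepF, zero_add, i.2, dif_pos, Fin.eta, ev]
    rfl
  rw [RLearner.output, this]; rfl

lemma measurable_stepF (L : RLearner d T M) (t : ℕ) :
    Measurable fun z : L.Ω × QL L × E d × ℝ => stepF L z.1 t z.2.1 z.2.2.1 z.2.2.2 := by
  have := L.fin
  let _ : MeasurableSpace L.St := ⊤
  have : DiscreteMeasurableSpace L.St := ⟨fun _ => trivial⟩
  have h1 : Measurable fun z : (L.Ω × E d × ℝ) × QL L => stepF L z.1.1 t z.2 z.1.2.1 z.1.2.2 := by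
    apply measurable_from_prod_countable_left
    intro q
    simp only [stepF]
    by_cases h : t < T
    · simp only [h, dif_pos]
      by_cases hq : q.2.isSome
      · simp only [hq, if_true]; exact measurable_const
      · simp only [hq]
        obtain ⟨hA, hB⟩ := L.trans_measurable ⟨t, h⟩ q.1
        have hh : Measurable fun w : L.St × Bool =>
          (if w.2 then (w.1, some (t + 1)) else (w.1, none) : QL L) := Measurable.of_discrete
        exact hh.comp (hA.prodMk hB)
    · simp only [h, dif_neg, not_false_eq_true]; exact measurable_const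
  exact h1.comp (f := fun z : L.Ω × QL L × E d × ℝ => ((z.1, z.2.2), z.2.1)) (by fun_prop)

lemma measurable_stepF' (L : RLearner d T M) (ω : L.Ω) (t : ℕ) :
    Measurable fun z : QL L × E d × ℝ => stepF L ω t z.1 z.2.1 z.2.2 :=
  (measurable_stepF L t).comp (f := fun z : QL L × E d × ℝ => (ω, z)) (by fun_prop)

lemma measurable_initQ (L : RLearner d T M) : Measurable (initQ L) := by
  have := L.fin
  let _ : MeasurableSpace L.St := ⊤
  have : DiscreteMeasurableSpace L.St := ⟨fun _ => trivial⟩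
  have hh : @Measurable (L.St × Bool) (QL L) _ _ fun w : L.St × Bool =>
    ((w.1, if w.2 then some 0 else none) : L.St × Option ℕ) := Measurable.of_discrete
  exact hh.comp (L.init_measurable.prodMk L.stopFirst_measurable)

lemma measurable_outQ (L : RLearner d T M) : Measurable fun z : L.Ω × QL L => outQ L z.1 z.2 := by
  apply measurable_from_prod_countable_left
  intro q
  exact L.out_measurable (q.2.getD T) q.1

lemma measurable_output (L : RLearner d T M) :
    Measurable fun z : E d × (L.Ω × (Fin T → E d)) => L.output z.2.1 z.1 z.2.2 := by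
  simp_rw [output_eq]
  have h1 := measurable_run (stepF L) (measurable_stepF L) T 0
  have h2 : Measurable fun z : E d × (L.Ω × (Fin T → E d)) => ev z.2.2 z.1 :=
    measurable_ev.comp (f := fun z : E d × (L.Ω × (Fin T → E d)) => (z.2.2, z.1)) (by fun_prop)
  have h3 : Measurable fun z : E d × (L.Ω × (Fin T → E d)) => initQ L z.2.1 :=
    (measurable_initQ L).comp (by fun_prop)
  have h4 := h1.comp (f := fun z : E d × (L.Ω × (Fin T → E d)) =>
    (z.2.1, initQ L z.2.1, z.2.2, ev z.2.2 z.1))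
    (measurable_snd.fst.prodMk (h3.prodMk (measurable_snd.snd.prodMk h2)))
  exact (measurable_outQ L).comp (measurable_snd.fst.prodMk h4)

/-- The success event. -/
def Succ (L : RLearner d T M) (ε : ℝ) : Set (E d × (L.Ω × (Fin T → E d))) :=
  {z | Real.arccos ⟪L.output z.2.1 z.1 z.2.2, z.1⟫ ≤ ε}

lemma measurableSet_Succ (L : RLearner d T M) (ε : ℝ) : MeasurableSet (Succ L ε) := by
  have := measurable_output L
  exact measurableSet_le (Real.measurable_arccos.comp (this.inner measurable_fst)) measurable_const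

lemma succ_le (L : RLearner d T M) (ε : ℝ) (B : ℝ) (hB : 0 ≤ B)
    (h : ∀ ω, ∫⁻ x, Gam (E d) T {G | (x, ω, G) ∈ Succ L ε} ∂lam d ≤ ENNReal.ofReal B) :
    L.successProb ε ≤ B := by
  have hS := measurableSet_Succ L ε
  have h1 : ((sphereUniform d).prod (L.ρ.prod (Gam (E d) T)))
      {p : Sphere d × (L.Ω × (Fin T → E d)) |
        Real.arccos (inner ℝ (L.output p.2.1 p.1 p.2.2) (p.1 : E d)) ≤ ε} =
      ((lam d).prod (L.ρ.prod (Gam (E d) T))) (Succ L ε) := by
    have e := Measure.map_prod_map (sphereUniform d) (L.ρ.prod (Gam (E d) T))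
      measurable_subtype_coe measurable_id
    rw [Measure.map_id] at e
    rw [lam, e, Measure.map_apply (measurable_subtype_coe.prodMap measurable_id) hS]
    rfl
  have h2 : ((lam d).prod (L.ρ.prod (Gam (E d) T))) (Succ L ε) ≤ ENNReal.ofReal B := by
    rw [Measure.prod_apply hS]
    have e : ∀ x, (L.ρ.prod (Gam (E d) T)) (Prod.mk x ⁻¹' Succ L ε) =
        ∫⁻ ω, Gam (E d) T {G | (x, ω, G) ∈ Succ L ε} ∂L.ρ := fun x =>
      Measure.prod_apply (measurable_prodMk_left hS)
    simp_rw [e]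
    have hm : Measurable fun z : E d × L.Ω => Gam (E d) T {G | (z.1, z.2, G) ∈ Succ L ε} := by
      have : MeasurableSet {w : (E d × L.Ω) × (Fin T → E d) | (w.1.1, w.1.2, w.2) ∈ Succ L ε} :=
        (show Measurable fun w : (E d × L.Ω) × (Fin T → E d) => (w.1.1, w.1.2, w.2) by fun_prop) hS
      exact measurable_measure_prodMk_left (ν := Gam (E d) T) this
    rw [lintegral_lintegral_swap
      (f := fun x ω => Gam (E d) T {G | (x, ω, G) ∈ Succ L ε}) hm.aemeasurable]
    calc _ ≤ ∫⁻ _ω, ENNReal.ofReal B ∂L.ρ := lintegral_mono h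
      _ = _ := by simp
  unfold RLearner.successProb
  rw [Measure.real]
  exact ENNReal.toReal_le_of_le_ofReal hB (h1.le.trans h2)

lemma small_T (L : RLearner d T M) (ε : ℝ) (hε : ε ≤ 1 / 10) (hd : 2 ≤ d) (hT : 5 * T ≤ d) :
    L.successProb ε ≤ 5 / 8 := by
  classical
  apply succ_le L ε _ (by norm_num)
  intro ω
  have hS := measurableSet_Succ L ε
  have := isProb_lam d (by omega)
  set H : Set (E d × (Fin T → E d)) := {w | (w.1, ω, w.2) ∈ Succ L ε} with hH
  have hHm : MeasurableSet H :=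
    (show Measurable fun w : E d × (Fin T → E d) => (w.1, ω, w.2) by fun_prop) hS
  have e : ∫⁻ x, Gam (E d) T {G | (x, ω, G) ∈ Succ L ε} ∂lam d =
      ∫⁻ G, lam d {x | (x, ω, G) ∈ Succ L ε} ∂Gam (E d) T :=
    (Measure.prod_apply (μ := lam d) (ν := Gam (E d) T) hHm).symm.trans
      (Measure.prod_apply_symm hHm)
  rw [e]
  suffices h : ∀ G, lam d {x | (x, ω, G) ∈ Succ L ε} ≤ ENNReal.ofReal (5 / 8) by
    calc _ ≤ ∫⁻ _G, ENNReal.ofReal (5 / 8) ∂Gam (E d) T := lintegral_mono h
      _ = _ := by simp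
  intro G
  set A : Set (E d) := {x | (x, ω, G) ∈ Succ L ε} with hA
  have hAm : MeasurableSet A := measurable_prodMk_right (y := G) hHm
  set W : Submodule ℝ (E d) := Submodule.span ℝ (range G) with hW
  have hdim : Module.finrank ℝ W ≤ T := by
    have := finrank_range_le_card (R := ℝ) G
    rw [Fintype.card_fin] at this
    exact this
  set f := W.reflection with hf
  have hfA : lam d (f ⁻¹' A) = lam d A := lam_preimage d (by omega) f A hAm
  have hev : ∀ x, ev G (f x) = ev G x := by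
    intro x; ext i
    have h1 : f (G i) = G i :=
      Submodule.reflection_mem_subspace_eq_self (Submodule.subset_span (mem_range_self i))
    simp only [ev]
    conv_lhs => rw [← h1]
    exact f.inner_map_map _ _
  have hint : lam d (A ∩ f ⁻¹' A) ≤ lam d (tube W 0 (1 / 10)) := by
    apply measure_mono_ae
    filter_upwards [lam_ae d] with x hx hxA
    obtain ⟨h1, h2⟩ : x ∈ A ∩ f ⁻¹' A := hxA
    simp only [hA, Succ, mem_preimage, mem_ofPred_eq, output_eq, hev] at h1 h2
    have ho : ‖outQ L ω (run (stepF L ω) T 0 (initQ L ω) G (ev G x))‖ = 1 := L.out_unit _ _ _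
    generalize outQ L ω (run (stepF L ω) T 0 (initQ L ω) G (ev G x)) = o at h1 h2 ho
    have a1 := norm_sub_le_of_arccos o x ho hx ε h1
    have a2 := norm_sub_le_of_arccos o (f x) ho (by simpa using hx) ε h2
    refine ⟨by simp [hx], ?_⟩
    simp only [sub_zero]
    have a3 : (x - o) - (f x - o) = (2:ℝ) • (x - W.starProjection x) := by
      rw [hf, Submodule.reflection_apply, two_smul, two_smul]; abel
    have a4 := norm_sub_le (x - o) (f x - o)
    rw [a3, norm_smul, Real.norm_eq_abs, abs_two] at a4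
    linarith
  have htube : lam d (tube W 0 (1 / 10)) ≤ ENNReal.ofReal (1 / 4) := by
    refine (lam_tube d (by omega) W _ (by norm_num) (by norm_num)).trans ?_
    apply ENNReal.ofReal_le_ofReal
    have b1 : ((4:ℝ) / (1 / 10)) ^ Module.finrank ℝ W ≤ (5 / 2) ^ d :=
      calc ((4:ℝ) / (1 / 10)) ^ Module.finrank ℝ W ≤ (4 / (1 / 10)) ^ T :=
            pow_le_pow_right₀ (by norm_num) hdim
        _ ≤ ((5 / 2) ^ 5) ^ T := by gcongr; norm_num
        _ = (5 / 2) ^ (5 * T) := by rw [pow_mul]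
        _ ≤ _ := pow_le_pow_right₀ (by norm_num) hT
    calc _ ≤ (5 / 2 : ℝ) ^ d * (2 * (1 / 10)) ^ d := by gcongr
      _ = (1 / 2) ^ d := by rw [← mul_pow]; norm_num
      _ ≤ (1 / 2) ^ 2 := pow_le_pow_of_le_one (by norm_num) (by norm_num) hd
      _ = _ := by norm_num
  have hsum := measure_union_add_inter (μ := lam d) A (f.continuous.measurable hAm)
  rw [hfA] at hsum
  have h2 : 2 * lam d A ≤ 2 * ENNReal.ofReal (5 / 8) := by
    rw [two_mul, ← hsum]
    calc _ ≤ 1 + ENNReal.ofReal (1 / 4) := add_le_add prob_le_one (hint.trans htube)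
      _ = ENNReal.ofReal (1 + 1 / 4) := by
          rw [ENNReal.ofReal_add (by norm_num) (by norm_num)]; simp
      _ = _ := by
          rw [← ENNReal.ofReal_ofNat 2, ← ENNReal.ofReal_mul (by norm_num)]; norm_num
  exact (ENNReal.mul_le_mul_iff_right (by norm_num) (by simp)).1 h2

lemma reach (L : RLearner d T M) (ω : L.Ω) (k : ℕ) : ∀ (t : ℕ) (q : QL L) G y,
    (run (stepF L ω) k t q G y).2 = q.2 ∨
      ∃ i < k, (run (stepF L ω) k t q G y).2 = some (t + 1 + i) := by
  induction k with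
  | zero => intro t q G y; left; rfl
  | succ k ih =>
    intro t q G y
    rw [run]
    rcases ih (t + 1) (stepF L ω t q (G 0) (y 0)) (Fin.tail G) (Fin.tail y) with h | ⟨i, hi, h⟩
    · rw [h]
      unfold stepF
      split_ifs with h1 h2 h3
      · left; rfl
      · right; exact ⟨0, by omega, rfl⟩
      · left; symm; simpa using h2
      · left; rfl
    · right; exact ⟨i + 1, by omega, by rw [h]; congr 1; ring⟩

lemma reach_card (L : RLearner d T M) (ω : L.Ω) (k : ℕ) (t : ℕ) (q : QL L) :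
    ∃ R : Finset (QL L), R.card ≤ 2 ^ M * (k + 1) ∧ ∀ G y, run (stepF L ω) k t q G y ∈ R := by
  classical
  let _ := L.fin
  refine ⟨(Finset.univ : Finset L.St) ×ˢ
    (insert q.2 ((Finset.range k).image fun i => some (t + 1 + i))), ?_, ?_⟩
  · refine (Finset.card_product _ _).le.trans ?_
    apply Nat.mul_le_mul L.card_le
    refine (Finset.card_insert_le _ _).trans ?_
    have := Finset.card_image_le (s := Finset.range k) (f := fun i => some (t + 1 + i))
    simp only [Finset.card_range] at this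
    omega
  · intro G y
    refine Finset.mem_product.2 ⟨Finset.mem_univ _, ?_⟩
    rcases reach L ω k t q G y with h | ⟨i, hi, h⟩
    · rw [h]; exact Finset.mem_insert_self _ _
    · rw [h]
      exact Finset.mem_insert_of_mem (Finset.mem_image.2 ⟨i, Finset.mem_range.2 hi, rfl⟩)

lemma frost_final (e D : ℕ) (hD : D ≤ e) (o : E (e + 1)) (ho : ‖o‖ = 1) (ε : ℝ) (hε : 0 < ε) :
    Frost ((lam (e + 1)).withDensity
      ({x : E (e + 1) | Real.arccos ⟪o, x⟫ ≤ ε}.indicator 1))
      (ENNReal.ofReal (8 * 4 ^ e * ε ^ (e - D))) D := by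
  intro c r hr
  have hA : MeasurableSet {x : E (e + 1) | Real.arccos ⟪o, x⟫ ≤ ε} :=
    measurableSet_le (Real.measurable_arccos.comp (by fun_prop)) measurable_const
  rw [withDensity_indicator_one hA, Measure.restrict_apply measurableSet_closedBall,
    ← ENNReal.ofReal_mul (by positivity)]
  obtain ⟨a, rfl⟩ := Nat.exists_eq_add_of_le' hD
  simp only [Nat.add_sub_cancel]
  rcases le_total r ε with h | h
  · refine (measure_mono inter_subset_left).trans ((lam_ball _ c r hr).trans ?_)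
    apply ENNReal.ofReal_le_ofReal
    rw [pow_add r, ← mul_assoc]
    gcongr
  · have h1 : lam (a + D + 1) (closedBall c r ∩ {x | Real.arccos ⟪o, x⟫ ≤ ε}) ≤
        lam (a + D + 1) (closedBall o ε) := by
      apply measure_mono_ae
      filter_upwards [lam_ae (a + D + 1)] with x hx hxA
      obtain ⟨_, h2⟩ : x ∈ closedBall c r ∩ {x | Real.arccos ⟪o, x⟫ ≤ ε} := hxA
      show x ∈ closedBall o ε
      rw [mem_closedBall, dist_eq_norm]
      exact norm_sub_le_of_arccos o x ho hx ε h2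
    refine h1.trans ((lam_ball _ o ε hε).trans ?_)
    apply ENNReal.ofReal_le_ofReal
    rw [pow_add ε, ← mul_assoc]
    gcongr

lemma K_bound (d k M b : ℕ) (hk : 4 * k ≤ d) (hb : M + k ≤ b * k) :
    ((2 ^ b * 8 ^ (2 * k) : ℝ≥0) : ℝ≥0∞) * (2 ^ d * 4 ^ k) + ((2 ^ M * (k + 1) : ℕ) : ℝ≥0∞) *
      (8 ^ (2 * k) / ((2 ^ b * 8 ^ (2 * k) : ℝ≥0) : ℝ≥0∞)) ^ k ≤ 2 ^ (b + 3 * d + 1) := by
  push_cast
  have h1 : (2 ^ b * 8 ^ (2 * k) * (2 ^ d * 4 ^ k) : ℝ≥0∞) ≤ 2 ^ (b + 3 * d) := by
    have e8 : (8 : ℝ≥0∞) = 2 ^ 3 := by norm_num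
    have e4 : (4 : ℝ≥0∞) = 2 ^ 2 := by norm_num
    rw [e8, e4, ← pow_mul, ← pow_mul, ← pow_add, ← pow_add, ← pow_add]
    exact pow_le_pow_right₀ (by norm_num) (by omega)
  have h2 : (8 ^ (2 * k) / (2 ^ b * 8 ^ (2 * k)) : ℝ≥0∞) = (2 ^ b)⁻¹ := by
    have := ENNReal.mul_div_mul_right (1 : ℝ≥0∞) (2 ^ b) (c := 8 ^ (2 * k)) (by simp) (by simp)
    rw [one_mul] at this
    rw [this, one_div]
  have h3 : (2 ^ M * (k + 1) : ℝ≥0∞) ≤ (2 ^ b) ^ k := by
    have : 2 ^ M * (k + 1) ≤ (2 ^ b) ^ k :=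
      calc 2 ^ M * (k + 1) ≤ 2 ^ M * 2 ^ k := Nat.mul_le_mul_left _ Nat.lt_two_pow_self
        _ = 2 ^ (M + k) := by rw [pow_add]
        _ ≤ 2 ^ (b * k) := Nat.pow_le_pow_right (by norm_num) hb
        _ = _ := by rw [pow_mul]
    exact_mod_cast this
  have h4 : (2 ^ M * (k + 1) : ℝ≥0∞) * ((2 ^ b)⁻¹) ^ k ≤ 1 :=
    calc _ ≤ (2 ^ b) ^ k * ((2 ^ b : ℝ≥0∞)⁻¹) ^ k := by gcongr
      _ = 1 := by rw [← mul_pow, ENNReal.mul_inv_cancel (by simp) (by simp), one_pow]
  rw [h2, pow_succ, mul_two]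
  exact add_le_add h1 (h4.trans (one_le_pow₀ (by norm_num)))

lemma large_T (e k b : ℕ) (L : RLearner (e + 1) T M) (ε : ℝ) (hε : 0 < ε) (hk0 : 0 < k)
    (hk : 4 * k ≤ e + 1) (hb : M + k ≤ b * k) :
    L.successProb ε ≤ (2 ^ (b + 3 * (e + 1) + 1)) ^ (T / k + 1) * (8 * 4 ^ e * ε ^ (e - 2 * k)) := by
  apply succ_le L ε _ (by positivity)
  intro ω
  set u : QL L → E (e + 1) → ℝ≥0∞ := fun q =>
    {x : E (e + 1) | Real.arccos ⟪outQ L ω q, x⟫ ≤ ε}.indicator 1 with hu
  have hum : ∀ q, Measurable (u q) := fun q => measurable_one.indicator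
    (measurableSet_le (Real.measurable_arccos.comp (by fun_prop)) measurable_const)
  have hS := measurableSet_Succ L ε
  have h1 : ∀ x, Gam (E (e + 1)) T {G | (x, ω, G) ∈ Succ L ε} =
      val (stepF L ω) T 0 u (initQ L ω) x := by
    intro x
    have hm : MeasurableSet {G : Fin T → E (e + 1) | (x, ω, G) ∈ Succ L ε} :=
      (show Measurable fun G : Fin T → E (e + 1) => (x, ω, G) by fun_prop) hS
    rw [val, ← lintegral_indicator_one hm]
    congr 1; ext G
    simp only [hu, indicator, Succ, mem_ofPred_eq, output_eq, Pi.one_apply]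
  simp_rw [h1]
  have hle : T ≤ (T / k + 1) * k := by
    have := Nat.lt_div_mul_add hk0 (a := T); nlinarith
  obtain ⟨j, hj⟩ := Nat.exists_eq_add_of_le hle
  have h2 : val (stepF L ω) T 0 u = val (stepF L ω) ((T / k + 1) * k) 0 u := by
    rw [hj, val_add _ (measurable_stepF' L ω), zero_add, val_id _ T]
    intro t ht q g y
    simp [stepF, not_lt.2 ht]
  rw [h2]
  have hK := K_bound (e + 1) k M b hk hb
  have h3 := val_frost (stepF L ω) (measurable_stepF' L ω) k (2 ^ M * (k + 1))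
    (reach_card L ω k) (lam (e + 1)) u hum (2 * k) k
    (ENNReal.ofReal (8 * 4 ^ e * ε ^ (e - 2 * k))) (ENNReal.ofReal_pos.2 (by positivity)).ne'
    ENNReal.ofReal_ne_top
    (fun q => frost_final e (2 * k) (by omega) _ (L.out_unit _ _ _) ε hε) (by omega)
    (2 ^ b * 8 ^ (2 * k)) (by positivity) (2 ^ (b + 3 * (e + 1) + 1)) (by simp)
    (by simpa using hK) (T / k + 1) 0 (initQ L ω)
  have h4 := h3.2 0 1 one_pos
  rw [withDensity_apply _ measurableSet_closedBall, Measure.restrict_eq_self_of_ae_mem] at h4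
  · refine h4.trans (le_of_eq ?_)
    rw [ENNReal.ofReal_mul (p := (2 ^ (b + 3 * (e + 1) + 1)) ^ (T / k + 1)) (by positivity),
      ENNReal.ofReal_pow (by positivity), ENNReal.ofReal_pow (by positivity)]
    simp
  · filter_upwards [lam_ae (e + 1)] with x hx
    simp [hx]

theorem main : ∀ A : ℝ, 0 < A → ∃ c : ℝ, 0 < c ∧ ∃ d₀ : ℕ, ∀ d ≥ d₀, ∀ (M T : ℕ),
      (M : ℝ) ≤ A * (d : ℝ) ^ 2 → ∀ ε : ℝ, 0 < ε → ε ≤ 1 / 10 →
        ∀ L : Crest.StreamLearn.RLearner d T M,
          2 / 3 ≤ L.successProb ε → c * d * Real.log (1 / ε) ≤ T := by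
  intro A hA
  refine ⟨1 / (4 * (104 * A + 93)), by positivity, 8, ?_⟩
  intro d hd M T hM ε hε hε' L hL
  have hT : d < 5 * T := by
    by_contra h
    have := small_T L ε hε' (by omega) (by omega)
    linarith
  obtain ⟨e, rfl⟩ : ∃ e, d = e + 1 := ⟨d - 1, by omega⟩
  set k := (e + 1) / 4 with hk
  have hk0 : 0 < k := by omega
  have hk8 : e + 1 ≤ 8 * k := by omega
  have h1 := large_T e k (M / k + 2) L ε hε hk0 (by omega)
    (by have := Nat.lt_div_mul_add hk0 (a := M); nlinarith)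
  set ℓ := Real.log (1 / ε) with hℓ
  have hℓ0 : 0 ≤ ℓ := Real.log_nonneg (by rw [le_div_iff₀ hε]; linarith)
  have hεe : ε = Real.exp (-ℓ) := by
    rw [hℓ, one_div, Real.log_inv, neg_neg, Real.exp_log hε]
  have h2e : (2:ℝ) ≤ Real.exp 1 := by have := Real.add_one_le_exp 1; linarith
  set a := (M / k + 2 + 3 * (e + 1) + 1) * (T / k + 1) + (4 + 2 * e) with ha
  have h2 : (1:ℝ) ≤ Real.exp (a - (e - 2 * k : ℕ) * ℓ) := by
    have e1 : (2 ^ (M / k + 2 + 3 * (e + 1) + 1) : ℝ) ^ (T / k + 1) * (8 * 4 ^ e * ε ^ (e - 2 * k)) =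
        2 ^ a * ε ^ (e - 2 * k) / 2 := by
      rw [ha, pow_add 2 _ (4 + 2 * e), pow_mul, pow_add 2 4, pow_mul]; ring
    rw [e1] at h1
    have e2 : (2:ℝ) ^ a ≤ Real.exp a := by
      calc (2:ℝ) ^ a ≤ Real.exp 1 ^ a := by gcongr
        _ = _ := by rw [← Real.exp_nat_mul, mul_one]
    have e3 : ε ^ (e - 2 * k) = Real.exp (-((e - 2 * k : ℕ) * ℓ)) := by
      rw [hεe, ← Real.exp_nat_mul]; congr 1; ring
    rw [sub_eq_add_neg, Real.exp_add, ← e3]
    have : (2:ℝ) ^ a * ε ^ (e - 2 * k) ≤ Real.exp a * ε ^ (e - 2 * k) := by gcongr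
    linarith
  have h3 : ((e - 2 * k : ℕ) : ℝ) * ℓ ≤ a := by
    have := Real.one_le_exp_iff.1 h2; linarith
  set d : ℝ := ((e + 1 : ℕ) : ℝ) with hdd
  have hd8 : (8:ℝ) ≤ d := by rw [hdd]; exact_mod_cast hd
  have hkr : d ≤ 8 * k := by rw [hdd]; exact_mod_cast hk8
  have hTr : d ≤ 5 * T := by rw [hdd]; exact_mod_cast hT.le
  have h4 : d ≤ 4 * ((e - 2 * k : ℕ) : ℝ) := by
    rw [hdd]; exact_mod_cast (by omega : e + 1 ≤ 4 * (e - 2 * k))
  have hdiv : ∀ n : ℕ, ((n / k : ℕ) : ℝ) * d ≤ 8 * n := by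
    intro n
    have : ((n / k : ℕ) : ℝ) * k ≤ n := by exact_mod_cast Nat.div_mul_le_self n k
    calc ((n / k : ℕ) : ℝ) * d ≤ ((n / k : ℕ) : ℝ) * (8 * k) := by gcongr
      _ ≤ _ := by linarith
  have h5 : ((M / k : ℕ) : ℝ) ≤ 8 * A * d := by
    have := hdiv M
    apply le_of_mul_le_mul_right _ (by linarith : 0 < d)
    nlinarith
  have h6 : (((T / k : ℕ) : ℝ) + 1) * d ≤ 13 * T := by have := hdiv T; linarith
  have h7 : (a : ℝ) ≤ (104 * A + 93) * T := by
    have e1 : (a : ℝ) = (((M / k : ℕ) : ℝ) + 3 * d + 3) * (((T / k : ℕ) : ℝ) + 1) + (2 + 2 * d) := by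
      rw [ha, hdd]; push_cast; ring
    have e2 : ((M / k : ℕ) : ℝ) + 3 * d + 3 ≤ (8 * A + 6) * d := by linarith
    rw [e1]
    calc _ ≤ ((8 * A + 6) * d) * (((T / k : ℕ) : ℝ) + 1) + 3 * d := by
          gcongr; linarith
      _ = (8 * A + 6) * ((((T / k : ℕ) : ℝ) + 1) * d) + 3 * d := by ring
      _ ≤ (8 * A + 6) * (13 * T) + 15 * T :=
          add_le_add (mul_le_mul_of_nonneg_left h6 (by positivity)) (by linarith)
      _ = _ := by ring
  have h8 : d * ℓ ≤ 4 * ((104 * A + 93) * T) := by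
    calc d * ℓ ≤ 4 * ((e - 2 * k : ℕ) : ℝ) * ℓ := by gcongr
      _ ≤ _ := by linarith
  rw [mul_assoc, one_div_mul_eq_div, div_le_iff₀ (by positivity)]
  linarith

end Crest.Agent.H5.Str
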