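import Crest.Agent.H5.Str.Step

set_option autoImplicit false

namespace Crest.Agent.H5.Str

open MeasureTheory ProbabilityTheory Set Metric Filter
open scoped ENNReal NNReal RealInnerProductSpace Topology

section run

variable {E Q : Type}

/-- Running the automaton `F` from time `t` for `j` steps. -/
def run (F : ℕ → Q → E → ℝ → Q) : (j : ℕ) → ℕ → Q → (Fin j → E) → (Fin j → ℝ) → Q
  | 0, _, q, _, _ => q
  | j + 1, t, q, G, y => run F j (t + 1) (F t q (G 0) (y 0)) (Fin.tail G) (Fin.tail y)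

lemma foldl_eq_run (F : ℕ → Q → E → ℝ → Q) (j : ℕ) : ∀ (t : ℕ) (q : Q) (G : Fin j → E)
    (y : Fin j → ℝ),
    (List.finRange j).foldl (fun q i => F (t + i.val) q (G i) (y i)) q = run F j t q G y := by
  induction j with
  | zero => intro t q G y; simp [run]
  | succ j ih =>
    intro t q G y
    rw [List.finRange_succ, List.foldl_cons, List.foldl_map, run, ← ih]
    simp only [Fin.val_zero, add_zero, Fin.val_succ, Fin.tail]
    congr 1
    ext q i
    rw [show t + (i.val + 1) = t + 1 + i.val by ring]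

lemma run_id (F : ℕ → Q → E → ℝ → Q) (T : ℕ) (hF : ∀ t, T ≤ t → ∀ q g y, F t q g y = q) (j : ℕ) :
    ∀ t, T ≤ t → ∀ q G y, run F j t q G y = q := by
  induction j with
  | zero => intro t _ q G y; rfl
  | succ j ih => intro t ht q G y; rw [run, ih _ (by omega), hF t ht]

lemma measurable_run {Ω : Type} [MeasurableSpace Ω] [MeasurableSpace E] [MeasurableSpace Q]
    (F : Ω → ℕ → Q → E → ℝ → Q)
    (hF : ∀ t, Measurable fun z : Ω × Q × E × ℝ => F z.1 t z.2.1 z.2.2.1 z.2.2.2) (j : ℕ) :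
    ∀ t, Measurable fun z : Ω × Q × (Fin j → E) × (Fin j → ℝ) =>
      run (F z.1) j t z.2.1 z.2.2.1 z.2.2.2 := by
  induction j with
  | zero => intro t; simp only [run]; fun_prop
  | succ j ih =>
    intro t
    simp only [run]
    have h1 : Measurable fun z : Ω × Q × (Fin (j + 1) → E) × (Fin (j + 1) → ℝ) =>
        F z.1 t z.2.1 (z.2.2.1 0) (z.2.2.2 0) :=
      (hF t).comp (f := fun z : Ω × Q × (Fin (j + 1) → E) × (Fin (j + 1) → ℝ) =>
        (z.1, z.2.1, z.2.2.1 0, z.2.2.2 0)) (by fun_prop)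
    have h2 : Measurable fun z : Ω × Q × (Fin (j + 1) → E) × (Fin (j + 1) → ℝ) =>
        (Fin.tail z.2.2.1 : Fin j → E) := by unfold Fin.tail; fun_prop
    have h3 : Measurable fun z : Ω × Q × (Fin (j + 1) → E) × (Fin (j + 1) → ℝ) =>
        (Fin.tail z.2.2.2 : Fin j → ℝ) := by unfold Fin.tail; fun_prop
    exact (ih (t + 1)).comp (f := fun z : Ω × Q × (Fin (j + 1) → E) × (Fin (j + 1) → ℝ) =>
        (z.1, F z.1 t z.2.1 (z.2.2.1 0) (z.2.2.2 0), Fin.tail z.2.2.1, Fin.tail z.2.2.2))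
      (measurable_fst.prodMk (h1.prodMk (h2.prodMk h3)))

lemma measurable_run' [MeasurableSpace E] [MeasurableSpace Q]
    (F : ℕ → Q → E → ℝ → Q)
    (hF : ∀ t, Measurable fun z : Q × E × ℝ => F t z.1 z.2.1 z.2.2) (j t : ℕ) (q : Q) :
    Measurable fun z : (Fin j → E) × (Fin j → ℝ) => run F j t q z.1 z.2 := by
  have := measurable_run (Ω := Unit) (fun _ => F) (fun t => (hF t).comp measurable_snd) j t
  exact this.comp (f := fun z : (Fin j → E) × (Fin j → ℝ) => ((), q, z.1, z.2)) (by fun_prop)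

end run

variable {E : Type} [NormedAddCommGroup E] [InnerProductSpace ℝ E] [FiniteDimensional ℝ E]
  [MeasurableSpace E] [BorelSpace E]
  {Q : Type} [MeasurableSpace Q] [DiscreteMeasurableSpace Q]

/-- The value function. -/
noncomputable def val (F : ℕ → Q → E → ℝ → Q) (j t : ℕ) (u : Q → E → ℝ≥0∞) (q : Q) (x : E) :
    ℝ≥0∞ :=
  ∫⁻ G, u (run F j t q G (ev G x)) x ∂Gam E j

omit [MeasurableSpace Q] [DiscreteMeasurableSpace Q] in
lemma val_zero (F : ℕ → Q → E → ℝ → Q) (t : ℕ) (u : Q → E → ℝ≥0∞) : val F 0 t u = u := by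
  ext q x; simp [val, run]

lemma val_succ (F : ℕ → Q → E → ℝ → Q)
    (hF : ∀ t, Measurable fun z : Q × E × ℝ => F t z.1 z.2.1 z.2.2) (j t : ℕ)
    (u : Q → E → ℝ≥0∞) (q : Q) (x : E) :
    val F (j + 1) t u q x = ∫⁻ g, val F j (t + 1) u (F t q g ⟪g, x⟫) x ∂stdGaussian E := by
  have hm : Measurable fun G : Fin (j + 1) → E => u (run F (j + 1) t q G (ev G x)) x :=
    (Measurable.of_discrete (f := fun q => u q x)).comp ((measurable_run' F hF (j + 1) t q).comp
      (measurable_id.prodMk (measurable_ev.comp measurable_prodMk_right)))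
  rw [val, Gam, lintegral_pi_succ _ _ _ hm]
  rfl

lemma val_add (F : ℕ → Q → E → ℝ → Q)
    (hF : ∀ t, Measurable fun z : Q × E × ℝ => F t z.1 z.2.1 z.2.2) (u : Q → E → ℝ≥0∞) (j k : ℕ) :
    ∀ t, val F (k + j) t u = val F k t (val F j (t + k) u) := by
  induction k with
  | zero => intro t; simp [val_zero]
  | succ k ih =>
    intro t
    ext q x
    rw [Nat.add_right_comm, val_succ F hF, val_succ F hF, ih, add_assoc, add_comm 1 k]

omit [MeasurableSpace Q] [DiscreteMeasurableSpace Q] in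
lemma val_id (F : ℕ → Q → E → ℝ → Q) (T : ℕ) (hF : ∀ t, T ≤ t → ∀ q g y, F t q g y = q) (j : ℕ)
    (u : Q → E → ℝ≥0∞) : val F j T u = u := by
  ext q x; simp [val, run_id F T hF j T le_rfl]

lemma val_frost (F : ℕ → Q → E → ℝ → Q)
    (hF : ∀ t, Measurable fun z : Q × E × ℝ => F t z.1 z.2.1 z.2.2) (k N : ℕ)
    (hR : ∀ t q, ∃ R : Finset Q, R.card ≤ N ∧ ∀ G y, run F k t q G y ∈ R)
    (lam : Measure E) [SFinite lam] (u : Q → E → ℝ≥0∞) (hu : ∀ q, Measurable (u q)) (D p : ℕ)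
    (F₀ : ℝ≥0∞) (hF0 : F₀ ≠ 0) (hFt : F₀ ≠ ∞)
    (hν : ∀ q, Frost (lam.withDensity (u q)) F₀ D) (hD : k + p ≤ D) (s : ℝ≥0) (hs : s ≠ 0)
    (K : ℝ≥0∞) (hKt : K ≠ ∞)
    (hK : s * (2 ^ Module.finrank ℝ E * 4 ^ k) + N * (8 ^ D / s) ^ p ≤ K) (n : ℕ) :
    ∀ t q, Measurable (val F (n * k) t u q) ∧
      Frost (lam.withDensity (val F (n * k) t u q)) (K ^ n * F₀) D := by
  have hK0 : K ≠ 0 := by
    intro h
    rw [h, nonpos_iff_eq_zero, add_eq_zero] at hK
    have := hK.1
    simp [hs] at this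
  induction n with
  | zero => intro t q; simp only [zero_mul, val_zero, pow_zero, one_mul]; exact ⟨hu q, hν q⟩
  | succ n ih =>
    intro t q
    rw [show (n + 1) * k = k + n * k by ring, val_add F hF]
    obtain ⟨R, hRN, hR'⟩ := hR t q
    have h := step_fun R lam (val F (n * k) (t + k) u) (fun q => (ih (t + k) q).1) D k p
      (K ^ n * F₀) (mul_ne_zero (pow_ne_zero _ hK0) hF0)
      (ENNReal.mul_ne_top (ENNReal.pow_ne_top hKt) hFt) (fun q => (ih (t + k) q).2) hD s hs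
      (fun z => run F k t q z.1 z.2)
      (fun q' => measurable_run' F hF k t q (MeasurableSet.of_discrete (s := {q'})))
      (fun z => hR' z.1 z.2)
    refine ⟨h.1, fun c ρ hρ => (h.2 c ρ hρ).trans ?_⟩
    rw [pow_succ', mul_assoc K]
    gcongr
    refine le_trans ?_ hK
    gcongr

end Crest.Agent.H5.Str
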