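import Crest.Agent.H5.Str.Key

set_option autoImplicit false

namespace Crest.Agent.H5.Str

open MeasureTheory ProbabilityTheory Set Metric Filter
open scoped ENNReal NNReal RealInnerProductSpace Topology

variable {E : Type} [NormedAddCommGroup E] [InnerProductSpace ℝ E] [FiniteDimensional ℝ E]
  [MeasurableSpace E] [BorelSpace E]

lemma measurable_fiber {Q : Type} {k : ℕ} (σ : (Fin k → E) × (Fin k → ℝ) → Q) (q : Q)
    (hσ : MeasurableSet (σ ⁻¹' {q})) :
    Measurable fun x : E => Gam E k {G | σ (G, ev G x) = q} := by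
  have hH : MeasurableSet {z : (Fin k → E) × E | σ (z.1, ev z.1 z.2) = q} :=
    (measurable_fst.prodMk measurable_ev) hσ
  exact measurable_measure_prodMk_right (μ := Gam E k) hH

lemma step_unit {Q : Type} (R : Finset Q) (ν : Q → Measure E) [∀ q, SFinite (ν q)] (D k p : ℕ)
    (hν : ∀ q ∈ R, Frost (ν q) 1 D) (hD : k + p ≤ D) (t : ℝ≥0) (ht : t ≠ 0)
    (σ : (Fin k → E) × (Fin k → ℝ) → Q) (hσ : ∀ q, MeasurableSet (σ ⁻¹' {q})) :
    ∑ q ∈ R, ∫⁻ x in closedBall 0 1, Gam E k {G | σ (G, ev G x) = q} ∂ν q ≤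
      t * (2 ^ Module.finrank ℝ E * 4 ^ k) + R.card * (8 ^ D / t) ^ p := by
  set μ₀ := (Gam E k).prod (volume : Measure (Fin k → ℝ)) with hμ₀
  have h1 : ∀ q ∈ R, ∫⁻ x in closedBall 0 1, Gam E k {G | σ (G, ev G x) = q} ∂ν q ≤
      t * μ₀.restrict (Zset E k) (σ ⁻¹' {q}) + (8 ^ D / t) ^ p := by
    intro q hq
    have hs : ∀ᵐ x ∂(ν q).restrict (closedBall 0 1), ‖x‖ ≤ 1 := by
      filter_upwards [ae_restrict_mem measurableSet_closedBall] with x hx
      simpa using hx
    have hF : Frost ((ν q).restrict (closedBall 0 1)) 1 D := fun c ρ hρ =>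
      (Measure.restrict_le_self _).trans (hν q hq c ρ hρ)
    rw [Measure.restrict_apply (hσ q)]
    refine le_trans ?_ (key _ D k p hF hs hD t ht (σ ⁻¹' {q} ∩ Zset E k)
      ((hσ q).inter (measurableSet_Zset k)))
    apply lintegral_mono_ae
    filter_upwards [hs] with x hx
    apply measure_mono
    intro G hG
    exact ⟨hG, mem_Zset G x hx⟩
  refine (Finset.sum_le_sum h1).trans ?_
  rw [Finset.sum_add_distrib, ← Finset.mul_sum, sum_measure_preimage_singleton _ fun q _ => hσ q,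
    Finset.sum_const, nsmul_eq_mul]
  gcongr
  calc _ ≤ μ₀.restrict (Zset E k) univ := measure_mono (subset_univ _)
    _ = μ₀ (Zset E k) := by simp
    _ ≤ _ := measure_Zset k

lemma step_scaled {Q : Type} (R : Finset Q) (ν : Q → Measure E) [∀ q, SFinite (ν q)] (D k p : ℕ)
    (F : ℝ≥0∞) (hF0 : F ≠ 0) (hFt : F ≠ ∞)
    (hν : ∀ q ∈ R, Frost (ν q) F D) (hD : k + p ≤ D) (t : ℝ≥0) (ht : t ≠ 0)
    (σ : (Fin k → E) × (Fin k → ℝ) → Q) (hσ : ∀ q, MeasurableSet (σ ⁻¹' {q}))
    (c : E) (r : ℝ) (hr : 0 < r) :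
    ∑ q ∈ R, ∫⁻ x in closedBall c r, Gam E k {G | σ (G, ev G x) = q} ∂ν q ≤
      (t * (2 ^ Module.finrank ℝ E * 4 ^ k) + R.card * (8 ^ D / t) ^ p) * F *
        ENNReal.ofReal (r ^ D) := by
  set ψ : E → E := fun x => r⁻¹ • (x - c) with hψ
  have hψm : Measurable ψ := by fun_prop
  set a : ℝ≥0∞ := F * ENNReal.ofReal (r ^ D) with ha
  have ha0 : a ≠ 0 := mul_ne_zero hF0 (ENNReal.ofReal_pos.2 (by positivity)).ne'
  have hat : a ≠ ∞ := ENNReal.mul_ne_top hFt ENNReal.ofReal_ne_top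
  have hpre : ∀ (c' : E) (ρ : ℝ), ψ ⁻¹' closedBall c' ρ = closedBall (c + r • c') (r * ρ) := by
    intro c' ρ
    ext x
    simp only [hψ, mem_preimage, mem_closedBall, dist_eq_norm]
    have : x - (c + r • c') = r • (r⁻¹ • (x - c) - c') := by
      rw [smul_sub, smul_smul, mul_inv_cancel₀ hr.ne', one_smul]; abel
    rw [this, norm_smul, Real.norm_eq_abs, abs_of_pos hr, mul_le_mul_iff_right₀ hr]
  set ν' : Q → Measure E := fun q => a⁻¹ • (ν q).map ψ with hν'
  have hF' : ∀ q ∈ R, Frost (ν' q) 1 D := by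
    intro q hq c' ρ hρ
    simp only [hν', Measure.smul_apply, smul_eq_mul]
    rw [Measure.map_apply hψm measurableSet_closedBall, hpre]
    calc _ ≤ a⁻¹ * (F * ENNReal.ofReal ((r * ρ) ^ D)) := by
          gcongr; exact hν q hq _ _ (by positivity)
      _ = a⁻¹ * a * ENNReal.ofReal (ρ ^ D) := by
          rw [mul_pow, ENNReal.ofReal_mul (by positivity), ha]; ring
      _ = _ := by rw [ENNReal.inv_mul_cancel ha0 hat]
  set τ : (Fin k → E) × (Fin k → ℝ) → (Fin k → E) × (Fin k → ℝ) :=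
    fun z => (z.1, ev z.1 c + r • z.2) with hτ
  have hτm : Measurable τ := by
    have : Measurable fun z : (Fin k → E) × (Fin k → ℝ) => ev z.1 c := by unfold ev; fun_prop
    exact measurable_fst.prodMk (this.add (by fun_prop))
  have hσ' : ∀ q, MeasurableSet ((σ ∘ τ) ⁻¹' {q}) := fun q => hτm (hσ q)
  have h := step_unit R ν' D k p hF' hD t ht (σ ∘ τ) hσ'
  have h2 : ∀ q, ∫⁻ x in closedBall c r, Gam E k {G | σ (G, ev G x) = q} ∂ν q =
      a * ∫⁻ x in closedBall 0 1, Gam E k {G | (σ ∘ τ) (G, ev G x) = q} ∂ν' q := by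
    intro q
    simp only [hν', Measure.restrict_smul, lintegral_smul_measure, smul_eq_mul]
    rw [← mul_assoc, ENNReal.mul_inv_cancel ha0 hat, one_mul,
      setLIntegral_map measurableSet_closedBall (measurable_fiber _ q (hσ' q)) hψm, hpre]
    simp only [smul_zero, add_zero, mul_one]
    congr 1; ext x; congr 1; ext G
    have : ev G c + r • ev G (ψ x) = ev G x := by
      ext i
      simp only [ev, hψ, Pi.add_apply, Pi.smul_apply, smul_eq_mul, real_inner_smul_right,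
        inner_sub_right]
      field_simp; ring
    simp only [mem_ofPred_eq, Function.comp, hτ, this]
  simp_rw [h2]
  rw [← Finset.mul_sum, mul_assoc _ F, ← ha, mul_comm _ a]
  gcongr

lemma lintegral_fiber {Q : Type} {k : ℕ} (R : Finset Q) (σ : (Fin k → E) × (Fin k → ℝ) → Q)
    (hσ : ∀ q, MeasurableSet (σ ⁻¹' {q})) (hR : ∀ z, σ z ∈ R) (u : Q → ℝ≥0∞) (x : E) :
    ∫⁻ G, u (σ (G, ev G x)) ∂Gam E k = ∑ q ∈ R, u q * Gam E k {G | σ (G, ev G x) = q} := by
  classical
  have hm : ∀ q, MeasurableSet {G : Fin k → E | σ (G, ev G x) = q} := fun q =>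
    (measurable_id.prodMk (measurable_ev.comp measurable_prodMk_right)) (hσ q)
  have h1 : ∀ G : Fin k → E, u (σ (G, ev G x)) =
      ∑ q ∈ R, {G : Fin k → E | σ (G, ev G x) = q}.indicator (fun _ => u q) G := by
    intro G
    rw [Finset.sum_eq_single (σ (G, ev G x))]
    · rw [indicator_of_mem]; rfl
    · intro q _ hq
      rw [indicator_of_notMem]; exact fun h => hq h.symm
    · intro h; exact absurd (hR _) h
  simp_rw [h1]
  rw [lintegral_finsetSum _ fun q _ => measurable_const.indicator (hm q)]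
  apply Finset.sum_congr rfl
  intro q _
  rw [lintegral_indicator_const (hm q)]

lemma step_fun {Q : Type} (R : Finset Q) (lam : Measure E) [SFinite lam] (g : Q → E → ℝ≥0∞)
    (hg : ∀ q, Measurable (g q)) (D k p : ℕ)
    (F : ℝ≥0∞) (hF0 : F ≠ 0) (hFt : F ≠ ∞)
    (hν : ∀ q, Frost (lam.withDensity (g q)) F D) (hD : k + p ≤ D) (t : ℝ≥0) (ht : t ≠ 0)
    (σ : (Fin k → E) × (Fin k → ℝ) → Q) (hσ : ∀ q, MeasurableSet (σ ⁻¹' {q}))
    (hR : ∀ z, σ z ∈ R) :
    Measurable (fun x => ∫⁻ G, g (σ (G, ev G x)) x ∂Gam E k) ∧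
    Frost (lam.withDensity fun x => ∫⁻ G, g (σ (G, ev G x)) x ∂Gam E k)
      ((t * (2 ^ Module.finrank ℝ E * 4 ^ k) + R.card * (8 ^ D / t) ^ p) * F) D := by
  have h1 : (fun x => ∫⁻ G, g (σ (G, ev G x)) x ∂Gam E k) =
      fun x => ∑ q ∈ R, g q x * Gam E k {G | σ (G, ev G x) = q} := by
    ext x; exact lintegral_fiber R σ hσ hR (fun q => g q x) x
  have hm : ∀ q, Measurable fun x => g q x * Gam E k {G | σ (G, ev G x) = q} := fun q =>
    (hg q).mul (measurable_fiber σ q (hσ q))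
  rw [h1]
  refine ⟨Finset.measurable_sum _ fun q _ => hm q, fun c r hr => ?_⟩
  rw [withDensity_apply _ measurableSet_closedBall, lintegral_finsetSum _ fun q _ => hm q]
  refine le_trans (le_of_eq ?_) (step_scaled R (fun q => lam.withDensity (g q)) D k p F hF0 hFt
    (fun q _ => hν q) hD t ht σ hσ c r hr)
  apply Finset.sum_congr rfl
  intro q _
  rw [setLIntegral_withDensity_eq_setLIntegral_mul _ (hg q) (measurable_fiber σ q (hσ q))
    measurableSet_closedBall]
  rfl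

end Crest.Agent.H5.Str
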